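import Mathlib

/-! The dyadic triangular Hilbert form. -/

namespace Vale.Agent.P075

open MeasureTheory Set

/-- The dyadic interval `[2^k n, 2^k (n+1))`. -/
def dyad (k : ℤ) (n : ℕ) : Set ℝ := Ico ((2 : ℝ) ^ k * n) ((2 : ℝ) ^ k * (n + 1))

/-- The Haar function of `dyad k n`: indicator of the left half minus that of the right half. -/
noncomputable def haar (k : ℤ) (n : ℕ) (x : ℝ) : ℝ :=
  (Ico ((2 : ℝ) ^ k * n) ((2 : ℝ) ^ k * (n + 1 / 2))).indicator (fun _ => (1 : ℝ)) x -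
    (Ico ((2 : ℝ) ^ k * (n + 1 / 2)) ((2 : ℝ) ^ k * (n + 1))).indicator (fun _ => (1 : ℝ)) x

/-- Index triples whose bitwise xor vanishes. -/
def Adm : Set (ℕ × ℕ × ℕ) := {n | n.1 ^^^ n.2.1 ^^^ n.2.2 = 0}

/-- The form `L_I` of the triple of intervals of length `2^k` with indices `n`. -/
noncomputable def Lform (F : Fin 3 → ℝ × ℝ → ℝ) (k : ℤ) (n : ℕ × ℕ × ℕ) : ℝ :=
  (2 : ℝ) ^ (-k) * ∫ x in dyad k n.1 ×ˢ dyad k n.2.1 ×ˢ dyad k n.2.2,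
    F 0 (x.1, x.2.1) * F 1 (x.2.1, x.2.2) * F 2 (x.2.2, x.1) *
      (haar k n.1 x.1 * haar k n.2.1 x.2.1 * haar k n.2.2 x.2.2)

/-- The dyadic triangular Hilbert form. -/
noncomputable def Lam (S : Finset ℤ) (ε : ℤ → ℝ) (F : Fin 3 → ℝ × ℝ → ℝ) : ℝ :=
  ∑ k ∈ S, ε k * ∑' n : Adm, Lform F k n

/-- The `L^3` norm on the quadrant `[0,∞)^2`. -/
noncomputable def nrm3 (f : ℝ × ℝ → ℝ) : ℝ :=
  (eLpNorm f 3 (volume.restrict (Ici (0 : ℝ) ×ˢ Ici (0 : ℝ)))).toReal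

end Vale.Agent.P075
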