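import Vale.Agent.P075.Disc
import Vale.Agent.P075.Defs

/-! Reduction of the continuous form to the discrete one. -/

namespace Vale.Agent.P075

open MeasureTheory Set

lemma intOn {E : Type} [MeasureSpace E] {G : E → ℝ} (hG : Measurable G) {C : ℝ}
    (hC : ∀ x, |G x| ≤ C) {s : Set E} (hs : volume s ≠ ⊤) : IntegrableOn G s :=
  Measure.integrableOn_of_bounded hs hG.aestronglyMeasurable (M := C) (ae_of_all _ hC)

/-- the cube `[0,A)^3` -/
def box (A : ℝ) : Set (ℝ × ℝ × ℝ) := Ico 0 A ×ˢ Ico 0 A ×ˢ Ico 0 A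

lemma box_meas (A : ℝ) : MeasurableSet (box A) :=
  measurableSet_Ico.prod (measurableSet_Ico.prod measurableSet_Ico)

lemma box_vol (A : ℝ) : volume (box A) ≠ ⊤ := by
  simp [box, Measure.volume_eq_prod, ENNReal.mul_eq_top]

lemma split_gen {κ : Type} (s : Finset κ) (t : κ → ℝ × ℝ × ℝ) {A δ : ℝ}
    (h : ∀ w, (box A).indicator (fun _ => (1 : ℝ)) w =
      ∑ i ∈ s, (box δ).indicator (fun _ => (1 : ℝ)) (-t i + w))
    {G : ℝ × ℝ × ℝ → ℝ} (hG : Measurable G) {C : ℝ} (hC : ∀ x, |G x| ≤ C) :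
    ∫ w in box A, G w = ∫ u in box δ, ∑ i ∈ s, G (t i + u) := by
  have : (volume : Measure (ℝ × ℝ)).IsAddLeftInvariant := by
    rw [Measure.volume_eq_prod]; infer_instance
  have : (volume : Measure (ℝ × ℝ × ℝ)).IsAddLeftInvariant := by
    rw [Measure.volume_eq_prod]; infer_instance
  have hi : ∀ i, IntegrableOn (fun u => G (t i + u)) (box δ) := fun i =>
    intOn (hG.comp (measurable_const_add _)) (fun _ => hC _) (box_vol δ)
  rw [integral_finsetSum _ fun i _ => hi i, ← integral_indicator (box_meas A)]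
  simp only [← integral_indicator (box_meas δ)]
  have e : ∀ i, ∫ u, (box δ).indicator (fun u => G (t i + u)) u =
      ∫ w, (box δ).indicator (fun u => G (t i + u)) (-t i + w) :=
    fun i => (integral_add_left_eq_self _ _).symm
  simp only [e]
  rw [← integral_finsetSum _ fun i _ =>
    ((integrable_indicator_iff (box_meas δ)).2 (hi i)).comp_add_left _]
  congr 1
  funext w
  have : (box A).indicator G w = (box A).indicator (fun _ => (1 : ℝ)) w * G w := by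
    by_cases hw : w ∈ box A <;> simp [hw]
  rw [this, h, Finset.sum_mul]
  refine Finset.sum_congr rfl fun i _ => ?_
  by_cases hw : -t i + w ∈ box δ <;> simp [hw]

lemma chi_split {δ : ℝ} (hδ : 0 < δ) (m : ℕ) (y : ℝ) :
    (Ico 0 (δ * m)).indicator (fun _ => (1 : ℝ)) y =
      ∑ x ∈ Finset.range m, (Ico 0 δ).indicator (fun _ => (1 : ℝ)) (-(δ * x) + y) := by
  induction m with
  | zero => simp
  | succ m ih =>
    rw [Finset.sum_range_succ, ← ih]
    have : 0 ≤ δ * m := by positivity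
    simp only [indicator, mem_Ico, Nat.cast_succ, mul_add, mul_one]
    split_ifs <;> first | (exfalso; grind) | norm_num

lemma box_ind (A : ℝ) (w : ℝ × ℝ × ℝ) : (box A).indicator (fun _ => (1 : ℝ)) w =
    (Ico 0 A).indicator (fun _ => (1 : ℝ)) w.1 * ((Ico 0 A).indicator (fun _ => (1 : ℝ)) w.2.1 *
      (Ico 0 A).indicator (fun _ => (1 : ℝ)) w.2.2) := by
  by_cases h1 : w.1 ∈ Ico 0 A <;> by_cases h2 : w.2.1 ∈ Ico 0 A <;> by_cases h3 : w.2.2 ∈ Ico 0 A <;>
    simp [box, indicator, h1, h2, h3, -mem_Ico]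

lemma cube_split {δ : ℝ} (hδ : 0 < δ) (m : ℕ) {G : ℝ × ℝ × ℝ → ℝ} (hG : Measurable G) {C : ℝ}
    (hC : ∀ x, |G x| ≤ C) : ∫ w in box (δ * m), G w = ∫ u in box δ, ∑ x ∈ Finset.range m,
      ∑ y ∈ Finset.range m, ∑ z ∈ Finset.range m, G (δ * x + u.1, δ * y + u.2.1, δ * z + u.2.2) := by
  rw [split_gen (Finset.range m ×ˢ Finset.range m ×ˢ Finset.range m)
    (fun i => (δ * i.1, δ * i.2.1, δ * i.2.2)) (δ := δ) _ hG hC]
  · simp only [Finset.sum_product]
    rfl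
  · intro w
    simp only [box_ind, chi_split hδ m, Finset.sum_product, Finset.sum_mul]
    simp only [Finset.mul_sum]
    rfl

lemma le_cell {δ u : ℝ} (hδ : 0 < δ) (hu : u ∈ Ico 0 δ) (b x : ℕ) :
    δ * b ≤ δ * x + u ↔ b ≤ x := by
  constructor
  · intro h
    by_contra hb
    have : (x : ℝ) + 1 ≤ b := by exact_mod_cast not_le.1 hb
    nlinarith [hu.2]
  · intro h
    have : (b : ℝ) ≤ x := by exact_mod_cast h
    nlinarith [hu.1]

lemma ind_cell {δ u : ℝ} (hδ : 0 < δ) (hu : u ∈ Ico 0 δ) (j a x : ℕ) :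
    (Ico (δ * (a * 2 ^ j : ℕ)) (δ * ((a + 1) * 2 ^ j : ℕ))).indicator (fun _ => (1 : ℝ)) (δ * x + u) =
      if x / 2 ^ j = a then 1 else 0 := by
  rw [indicator]
  congr 1
  rw [mem_Ico, ← not_le, le_cell hδ hu, le_cell hδ hu, ← Nat.le_div_iff_mul_le (by positivity),
    ← Nat.le_div_iff_mul_le (by positivity), eq_iff_iff]
  omega

lemma haar_eq (k : ℤ) {u : ℝ} (hu : u ∈ Ico 0 ((2 : ℝ) ^ k)) (j n x : ℕ) :
    haar (k + (j + 1 : ℕ)) n (2 ^ k * x + u) = hd j n x := by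
  rw [hd, ← ind_cell (by positivity) hu, ← ind_cell (by positivity) hu, haar,
    zpow_add₀ two_ne_zero, zpow_natCast]
  congr 3 <;> push_cast <;> ring

lemma haar_ne {k : ℤ} {n : ℕ} {x : ℝ} (h : haar k n x ≠ 0) : x ∈ dyad k n := by
  have : (0 : ℝ) < 2 ^ k := by positivity
  by_contra h0
  apply h
  rw [haar, indicator_of_notMem, indicator_of_notMem, sub_zero]
  · exact fun h1 => h0 ⟨by nlinarith [h1.1], h1.2⟩
  · exact fun h1 => h0 ⟨h1.1, by nlinarith [h1.2]⟩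

lemma haar_meas (k : ℤ) (n : ℕ) : Measurable (haar k n) :=
  (measurable_const.indicator measurableSet_Ico).sub (measurable_const.indicator measurableSet_Ico)

lemma haar_le (k : ℤ) (n : ℕ) (x : ℝ) : |haar k n x| ≤ 1 := by
  simp only [haar, indicator]
  split_ifs <;> simp

/-- the samples of `F` on the grid `δ ℕ + u` -/
def av (F : Fin 3 → ℝ × ℝ → ℝ) (δ : ℝ) (u : ℝ × ℝ × ℝ) : Fin 3 → ℕ → ℕ → ℝ :=
  ![fun x y => F 0 (δ * x + u.1, δ * y + u.2.1), fun x y => F 1 (δ * x + u.2.1, δ * y + u.2.2),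
    fun x y => F 2 (δ * x + u.2.2, δ * y + u.1)]

variable {F : Fin 3 → ℝ × ℝ → ℝ} {A B : ℝ}

lemma abs3 (hB : ∀ v p, |F v p| ≤ B) (p q r : ℝ × ℝ) : |F 0 p * F 1 q * F 2 r| ≤ B * B * B := by
  have h0 : 0 ≤ B := (abs_nonneg _).trans (hB 0 p)
  rw [abs_mul, abs_mul]
  gcongr <;> apply hB

lemma Lform_eq (hm : ∀ v, Measurable (F v)) (hB : ∀ v p, |F v p| ≤ B)
    (hA : ∀ v p, A ≤ p.1 → F v p = 0) (k : ℤ) (m : ℕ) (hAm : A ≤ 2 ^ k * m) (j n0 n1 : ℕ) :
    Lform F (k + (j + 1 : ℕ)) (n0, n1, n0 ^^^ n1) =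
      2 ^ (-(k + (j + 1 : ℕ))) * ∫ u in box (2 ^ k), dL (av F (2 ^ k) u) m j n0 n1 := by
  rw [Lform]
  congr 1
  have hneg : ∀ n x, x < 0 → haar (k + (j + 1 : ℕ)) n x = 0 := by
    intro n x hx
    by_contra h
    have := (haar_ne h).1
    have : (0 : ℝ) ≤ 2 ^ (k + (j + 1 : ℕ)) * n := by positivity
    linarith
  rw [setIntegral_eq_integral_of_forall_compl_eq_zero,
    ← setIntegral_eq_integral_of_forall_compl_eq_zero (s := box (2 ^ k * m)),
    cube_split (by positivity) m (C := B * B * B * (1 * 1 * 1))]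
  · apply setIntegral_congr_fun (box_meas _)
    intro u hu
    simp only [haar_eq k hu.1, haar_eq k hu.2.1, haar_eq k hu.2.2]
    rfl
  · have := hm 0
    have := hm 1
    have := hm 2
    have := haar_meas (k + (j + 1 : ℕ))
    fun_prop
  · intro x
    have h0 : 0 ≤ B := (abs_nonneg _).trans (hB 0 0)
    rw [abs_mul _ (_ * _), abs_mul (_ * _) (haar _ _ _), abs_mul (haar _ _ _)]
    gcongr
    exacts [abs3 hB _ _ _, haar_le _ _ _, haar_le _ _ _, haar_le _ _ _]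
  · intro x hx
    simp only [box, mem_prod, mem_Ico, not_and_or, not_le, not_lt] at hx
    rcases hx with (h | h) | (h | h) | (h | h)
    · simp only [hneg _ _ h, zero_mul, mul_zero]
    · simp [hA 0 (x.1, x.2.1) (hAm.trans h)]
    · simp only [hneg _ _ h, zero_mul, mul_zero]
    · simp [hA 1 (x.2.1, x.2.2) (hAm.trans h)]
    · simp only [hneg _ _ h, zero_mul, mul_zero]
    · simp [hA 2 (x.2.2, x.1) (hAm.trans h)]
  · intro x hx
    by_contra h
    have h := right_ne_zero_of_mul h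
    exact hx ⟨haar_ne (left_ne_zero_of_mul (left_ne_zero_of_mul h)),
      haar_ne (right_ne_zero_of_mul (left_ne_zero_of_mul h)), haar_ne (right_ne_zero_of_mul h)⟩

lemma hasSum_L (hA : ∀ v p, A ≤ p.1 → F v p = 0) (k : ℤ) (K : ℕ) (hK : A ≤ 2 ^ k * K) :
    HasSum (fun n : Adm => Lform F k n)
      (∑ n0 ∈ Finset.range K, ∑ n1 ∈ Finset.range K, Lform F k (n0, n1, n0 ^^^ n1)) := by
  let e : ℕ × ℕ ≃ Adm :=
    { toFun := fun n => ⟨(n.1, n.2, n.1 ^^^ n.2), by simp [Adm]⟩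
      invFun := fun n => (n.1.1, n.1.2.1)
      left_inv := fun n => rfl
      right_inv := fun ⟨⟨a, b, c⟩, h⟩ => by
        have : a ^^^ b = c := Nat.xor_eq_zero_iff.1 h
        subst this
        rfl }
  rw [← e.hasSum_iff, ← Finset.sum_product']
  apply hasSum_sum_of_ne_finset_zero
  intro n hn
  have hle : ∀ n x, K ≤ n → x ∈ dyad k n → A ≤ x := by
    intro n x h hx
    have : (K : ℝ) ≤ n := by exact_mod_cast h
    have := mul_le_mul_of_nonneg_left this (by positivity : (0 : ℝ) ≤ 2 ^ k)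
    linarith [hx.1]
  show Lform F k (n.1, n.2, n.1 ^^^ n.2) = 0
  rw [Lform, setIntegral_eq_zero_of_forall_eq_zero, mul_zero]
  intro x hx
  simp only [Finset.mem_product, Finset.mem_range, not_and_or, not_lt] at hn
  rcases hn with h | h
  · simp [hA 0 (x.1, x.2.1) (hle _ _ h hx.1)]
  · simp [hA 1 (x.2.1, x.2.2) (hle _ _ h hx.2.1)]

lemma box_marg {g : ℝ × ℝ → ℝ} (hg : Measurable g) {C : ℝ} (hC : ∀ p, |g p| ≤ C) (h0 : ∀ p, 0 ≤ g p)
    (hi : IntegrableOn g (Ici 0 ×ˢ Ici 0)) {A : ℝ} (hA : 0 ≤ A) :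
    ∫ w in box A, g (w.1, w.2.1) ≤ A * ∫ p in Ici 0 ×ˢ Ici 0, g p ∧
    ∫ w in box A, g (w.2.1, w.2.2) ≤ A * ∫ p in Ici 0 ×ˢ Ici 0, g p ∧
    ∫ w in box A, g (w.2.2, w.1) ≤ A * ∫ p in Ici 0 ×ˢ Ici 0, g p := by
  obtain ⟨μ, hμ⟩ : ∃ μ : Measure ℝ, μ = volume.restrict (Ico 0 A) := ⟨_, rfl⟩
  have : IsFiniteMeasure μ := by rw [hμ]; infer_instance
  have e1 : μ.real univ = A := by simp [hμ, Measure.real, hA]
  have e2 : volume.restrict (box A) = μ.prod (μ.prod μ) := by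
    rw [hμ, Measure.prod_restrict, Measure.prod_restrict]; rfl
  have e3 : ∫ p, g p ∂μ.prod μ ≤ ∫ p in Ici 0 ×ˢ Ici 0, g p := by
    rw [hμ, Measure.prod_restrict]
    exact setIntegral_mono_set hi (ae_of_all _ h0)
      (prod_mono Ico_subset_Ici_self Ico_subset_Ici_self).eventuallyLE
  have e4 := mul_le_mul_of_nonneg_left e3 hA
  have i2 : Integrable g (μ.prod μ) := .of_bound hg.aestronglyMeasurable C (ae_of_all _ hC)
  rw [e2]
  refine ⟨?_, ?_, ?_⟩
  · rw [integral_prod _ (.of_bound (Measurable.aestronglyMeasurable (by fun_prop)) C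
      (ae_of_all _ fun _ => hC _))]
    have : ∀ x, ∫ y : ℝ × ℝ, g (x, y.1) ∂μ.prod μ = _ := fun x => integral_fun_fst fun y => g (x, y)
    simp only [this, e1, smul_eq_mul, integral_const_mul]
    rwa [← integral_prod _ i2]
  · rwa [integral_fun_snd (fun y : ℝ × ℝ => g (y.1, y.2)), e1]
  · rw [integral_prod _ (.of_bound (Measurable.aestronglyMeasurable (by fun_prop)) C
      (ae_of_all _ fun _ => hC _))]
    have : ∀ x, ∫ y : ℝ × ℝ, g (y.2, x) ∂μ.prod μ = _ := fun x => integral_fun_snd fun y => g (y, x)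
    simp only [this, e1, smul_eq_mul, integral_const_mul]
    rwa [← integral_prod_symm _ i2]

open Finset in
lemma norm_part (hm : ∀ v, Measurable (F v)) (hB : ∀ v p, |F v p| ≤ B)
    (hi : ∀ v, IntegrableOn (fun p => |F v p| ^ 3) (Set.Ici 0 ×ˢ Set.Ici 0)) {δ : ℝ} (hδ : 0 < δ) {m : ℕ}
    (hm0 : 0 < m) : ∫ u in box δ, ∑ x ∈ range m, ∑ y ∈ range m,
      (|av F δ u 0 x y| ^ 3 + |av F δ u 1 x y| ^ 3 + |av F δ u 2 x y| ^ 3) ≤
      δ * ∑ v, ∫ p in Set.Ici 0 ×ˢ Set.Ici 0, |F v p| ^ 3 := by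
  have hb : ∀ v p, |(|F v p| ^ 3)| ≤ B ^ 3 := fun v p => by
    rw [abs_of_nonneg (by positivity)]
    gcongr
    exact hB v p
  have hg : ∀ v, Measurable fun p => |F v p| ^ 3 := fun v => by have := hm v; fun_prop
  have key := fun v => box_marg (hg v) (hb v) (fun p => by positivity) (hi v) (A := δ * m)
    (by positivity)
  have m0 : Measurable fun w : ℝ × ℝ × ℝ => |F 0 (w.1, w.2.1)| ^ 3 := (hg 0).comp (by fun_prop)
  have m1 : Measurable fun w : ℝ × ℝ × ℝ => |F 1 (w.2.1, w.2.2)| ^ 3 := (hg 1).comp (by fun_prop)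
  have m2 : Measurable fun w : ℝ × ℝ × ℝ => |F 2 (w.2.2, w.1)| ^ 3 := (hg 2).comp (by fun_prop)
  have i0 := intOn m0 (fun _ => hb _ _) (box_vol (δ * m))
  have i1 := intOn m1 (fun _ => hb _ _) (box_vol (δ * m))
  have i2 := intOn m2 (fun _ => hb _ _) (box_vol (δ * m))
  have e := cube_split hδ m ((m0.add m1).add m2) (C := B ^ 3 + B ^ 3 + B ^ 3) fun w =>
    (abs_add_three _ _ _).trans (add_le_add (add_le_add (hb _ _) (hb _ _)) (hb _ _))
  rw [integral_add' (i0.add i1) i2, integral_add' i0 i1] at e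
  have hm' : (0 : ℝ) < m := by exact_mod_cast hm0
  apply le_of_mul_le_mul_left _ hm'
  rw [← integral_const_mul, Fin.sum_univ_three]
  refine le_trans (le_of_eq (Eq.trans ?_ e.symm)) (by nlinarith [(key 0).1, (key 1).2.1, (key 2).2.2])
  congr 1
  funext u
  simp only [Pi.add_apply, sum_add_distrib, sum_const, card_range, nsmul_eq_mul, ← mul_sum, mul_add]
  rw [sum_comm (f := fun x y => |av F δ u 2 x y| ^ 3)]
  rfl

open Finset in
theorem additive (hm : ∀ v, Measurable (F v)) (hB : ∀ v p, |F v p| ≤ B)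
    (hA : ∀ v p, A ≤ p.1 → F v p = 0)
    (hi : ∀ v, IntegrableOn (fun p => |F v p| ^ 3) (Set.Ici 0 ×ˢ Set.Ici 0)) (S : Finset ℤ) {ε : ℤ → ℝ}
    (hε : ∀ k ∈ S, |ε k| ≤ 1) :
    |Lam S ε F| ≤ 64 * ∑ v, ∫ p in Set.Ici 0 ×ˢ Set.Ici 0, |F v p| ^ 3 := by
  obtain ⟨k₀, J, hS⟩ : ∃ (k₀ : ℤ) (J : ℕ), S ⊆ (range J).image fun j : ℕ => k₀ + (j + 1 : ℕ) := by
    obtain ⟨a, ha⟩ := S.bddBelow
    obtain ⟨b, hb⟩ := S.bddAbove
    refine ⟨a - 1, (b - a + 1).toNat, fun k hk => mem_image.2 ⟨(k - a).toNat, ?_, ?_⟩⟩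
    · have := ha hk; have := hb hk; simp only [Finset.mem_range]; omega
    · have := ha hk; omega
  obtain ⟨δ, hδ⟩ : ∃ δ : ℝ, δ = 2 ^ k₀ := ⟨_, rfl⟩
  have hδ0 : 0 < δ := by rw [hδ]; positivity
  obtain ⟨M, hM⟩ : ∃ M : ℕ, A ≤ δ * (2 ^ M : ℕ) := by
    obtain ⟨M, hM⟩ := pow_unbounded_of_one_lt (A / δ) (one_lt_two (α := ℝ))
    exact ⟨M, by rw [div_lt_iff₀' hδ0] at hM; push_cast; exact hM.le⟩
  have hup : ∀ j : ℕ, A ≤ δ * (2 ^ (j + M) : ℕ) := fun j => hM.trans (by gcongr <;> simp)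
  obtain ⟨E, hE⟩ : ∃ E : ℤ → ℝ, ∀ k, E k = ∑ n0 ∈ range (2 ^ M), ∑ n1 ∈ range (2 ^ M),
    |Lform F k (n0, n1, n0 ^^^ n1)| := ⟨_, fun _ => rfl⟩
  have hE0 : ∀ k, 0 ≤ E k := fun k => by rw [hE]; positivity
  have s1 : |Lam S ε F| ≤ ∑ j ∈ range J, E (k₀ + (j + 1 : ℕ)) := by
    refine (abs_sum_le_sum_abs _ _).trans (le_trans (sum_le_sum (g := E) fun k hk => ?_)
      ((sum_le_sum_of_subset_of_nonneg hS fun k _ _ => hE0 k).trans
        (sum_image_le_of_nonneg fun k _ => hE0 k)))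
    obtain ⟨j, -, rfl⟩ := mem_image.1 (hS hk)
    rw [(hasSum_L hA _ (2 ^ M) _).tsum_eq, abs_mul, hE]
    · refine (mul_le_of_le_one_left (abs_nonneg _) (hε _ hk)).trans ?_
      exact (abs_sum_le_sum_abs _ _).trans (sum_le_sum fun _ _ => abs_sum_le_sum_abs _ _)
    · have := hup (j + 1)
      rw [zpow_add₀ two_ne_zero, ← hδ, zpow_natCast]
      push_cast at this ⊢
      rwa [pow_add, ← mul_assoc] at this
  have iL : ∀ j n0 n1, IntegrableOn (fun u => |dL (av F δ u) (2 ^ (J + M)) j n0 n1|) (box δ) := by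
    intro j n0 n1
    refine Integrable.abs (integrable_finsetSum _ fun x _ => integrable_finsetSum _ fun y _ =>
      integrable_finsetSum _ fun z _ => Integrable.mul_const ?_ _)
    refine intOn ?_ (fun u => abs3 hB _ _ _) (box_vol δ)
    have := hm 0
    have := hm 1
    have := hm 2
    fun_prop
  have iN : ∀ v x y, IntegrableOn (fun u => |av F δ u v x y| ^ 3) (box δ) := by
    intro v x y
    refine intOn ?_ (C := B ^ 3) (fun u => ?_) (box_vol δ)
    · have := hm v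
      fin_cases v <;> simp only [av] <;> fun_prop
    · rw [abs_of_nonneg (by positivity)]
      gcongr
      fin_cases v <;> apply hB
  have s2 : ∀ j : ℕ, E (k₀ + (j + 1 : ℕ)) ≤ δ⁻¹ * ∫ u in box δ, (1 / 2) ^ (j + 1) *
      ∑ n0 ∈ range (2 ^ M), ∑ n1 ∈ range (2 ^ M), |dL (av F δ u) (2 ^ (J + M)) j n0 n1| := by
    intro j
    rw [integral_const_mul, integral_finsetSum _ fun n0 _ => integrable_finsetSum _ fun n1 _ =>
      iL j n0 n1, hE, ← mul_assoc, mul_sum]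
    refine sum_le_sum fun n0 _ => ?_
    rw [integral_finsetSum _ fun n1 _ => iL j n0 n1, mul_sum]
    refine sum_le_sum fun n1 _ => ?_
    rw [Lform_eq hm hB hA k₀ (2 ^ (J + M)) (hδ ▸ hup J), ← hδ, abs_mul,
      abs_of_pos (by positivity), zpow_neg, zpow_add₀ two_ne_zero, ← hδ, zpow_natCast, mul_inv,
      one_div, inv_pow]
    exact mul_le_mul_of_nonneg_left abs_integral_le_integral_abs (by positivity)
  have iS : ∀ j ∈ range J, IntegrableOn (fun u => (1 / 2 : ℝ) ^ (j + 1) * ∑ n0 ∈ range (2 ^ M),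
      ∑ n1 ∈ range (2 ^ M), |dL (av F δ u) (2 ^ (J + M)) j n0 n1|) (box δ) := fun j _ =>
    (integrable_finsetSum _ fun n0 _ => integrable_finsetSum _ fun n1 _ => iL j n0 n1).const_mul _
  have s3 := s1.trans (sum_le_sum fun j _ => s2 j)
  rw [← mul_sum, ← integral_finsetSum _ iS] at s3
  have s4 := integral_mono (integrable_finsetSum _ iS) ((integrable_finsetSum _ fun x _ =>
    integrable_finsetSum _ fun y _ => ((iN 0 x y).add (iN 1 x y)).add (iN 2 x y)).const_mul 64)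
    fun u => disc (av F δ u) (2 ^ (J + M)) J M
  have s5 := norm_part hm hB hi hδ0 (m := 2 ^ (J + M)) (by positivity)
  rw [integral_const_mul] at s4
  refine s3.trans ?_
  rw [inv_mul_le_iff₀ hδ0]
  refine s4.trans ?_
  simp only [Pi.add_apply]
  linarith

end Vale.Agent.P075
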