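import Vale.Agent.P075.Lin

/-! The one-step Bellman inequality. -/

namespace Vale.Agent.P075

open Matrix

variable {ι : Type} [Fintype ι] [DecidableEq ι]

lemma exists_T {U : Matrix ι ι ℝ} (hU : Og U) {s : ι → ℝ} (hs : ∀ a, 0 ≤ s a) {Z : Matrix ι ι ℝ}
    (hZ : Zᵀ = Z) : ∃ Y : Matrix ι ι ℝ, (Y * sm U s)ᵀ = Y * sm U s ∧
      sm U s * (Y * sm U s) + (Y * sm U s) * sm U s = sm U s * Z * sm U s := by
  obtain ⟨Z', hZ'⟩ : ∃ Z', Z' = Uᵀ * Z * U := ⟨_, rfl⟩
  have hsym : ∀ a b, Z' b a = Z' a b := by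
    intro a b
    have : Z'ᵀ = Z' := by rw [hZ']; simp [Matrix.mul_assoc, hZ]
    exact congrFun (congrFun this a) b
  have hZe : Z = U * Z' * Uᵀ := by
    rw [hZ']
    calc Z = (U * Uᵀ) * Z * (U * Uᵀ) := by rw [hU.1]; simp
      _ = _ := by simp only [Matrix.mul_assoc]
  have conj : ∀ X X' : Matrix ι ι ℝ, U * X * Uᵀ * (U * X' * Uᵀ) = U * (X * X') * Uᵀ := by
    intro X X'
    calc U * X * Uᵀ * (U * X' * Uᵀ) = U * X * (Uᵀ * U) * X' * Uᵀ := by simp only [Matrix.mul_assoc]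
      _ = _ := by rw [hU.2]; simp only [Matrix.mul_one, Matrix.mul_assoc]
  refine ⟨U * (Matrix.of fun a b => s a / (s a + s b) * Z' a b) * Uᵀ, ?_, ?_⟩
  · rw [sm, conj]
    simp only [transpose_mul, transpose_transpose, ← Matrix.mul_assoc]
    congr 1
    rw [Matrix.mul_assoc, Matrix.mul_assoc]
    congr 1
    ext a b
    simp only [diagonal_transpose, diagonal_mul, mul_diagonal, transpose_apply, of_apply, hsym a b]
    rw [add_comm (s b)]
    ring
  · rw [hZe, sm]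
    simp only [conj]
    rw [← Matrix.add_mul, ← Matrix.mul_add]
    congr 2
    ext a b
    simp only [Matrix.add_apply, diagonal_mul, mul_diagonal, of_apply]
    by_cases h : s a + s b = 0
    · have : s a = 0 := by linarith [hs a, hs b]
      simp [this]
    · field_simp

lemma abs_quad_T {U : Matrix ι ι ℝ} (hU : Og U) {s : ι → ℝ} (hs : ∀ a, 0 ≤ s a)
    {Z Y T : Matrix ι ι ℝ} (hZ : Con Z) (hT : T = Y * sm U s) (hTs : Tᵀ = T)
    (hL : sm U s * T + T * sm U s = sm U s * Z * sm U s) (c : ℝ) (hc : |c| ≤ 2) :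
    Ps (sm U s + c • T) := by
  have hR := sm_symm U s
  have hp := ps_sm U hs
  apply lyapunov (D := sm U s) (by simp [hR, hTs]) hp
  · intro v
    have h1 := congrArg (fun M => v ⬝ᵥ M *ᵥ v) hL
    simp only [add_mulVec, dotProduct_add, ← mulVec_mulVec] at h1
    rw [dot_mulVec (sm U s) v, dot_mulVec T v, dot_mulVec (sm U s) v, hR, hTs,
      dotProduct_comm (sm U s *ᵥ v) (T *ᵥ v)] at h1
    rw [add_mulVec, add_dotProduct, smul_mulVec, smul_dotProduct, smul_eq_mul]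
    generalize sm U s *ᵥ v = y at *
    have h2 := two_dot_le y (Z *ᵥ y)
    have h3 := two_dot_le y (-(Z *ᵥ y))
    have h4 := hZ y
    simp only [dotProduct_neg, neg_dotProduct, neg_neg] at h3
    have h5 := dot_nonneg y
    rw [abs_le] at hc
    have h6 : T *ᵥ v ⬝ᵥ y = (y ⬝ᵥ Z *ᵥ y) / 2 := by linarith
    rw [h6]
    nlinarith [mul_nonneg (by linarith : 0 ≤ 2 + c) (by linarith : 0 ≤ y ⬝ᵥ y + y ⬝ᵥ Z *ᵥ y),
      mul_nonneg (by linarith : 0 ≤ 2 - c) (by linarith : 0 ≤ y ⬝ᵥ y - y ⬝ᵥ Z *ᵥ y)]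
  · intro v hv
    have := ker_of_quad hU hs hv
    rw [add_mulVec, smul_mulVec, hT, ← mulVec_mulVec, this]
    simp

lemma bilin {U : Matrix ι ι ℝ} (hU : Og U) {s : ι → ℝ} (hs : ∀ a, 0 ≤ s a) {N : Matrix ι ι ℝ}
    (h1 : ∀ x, N *ᵥ x ⬝ᵥ N *ᵥ x ≤ sm U s *ᵥ x ⬝ᵥ sm U s *ᵥ x)
    (h2 : ∀ x, Nᵀ *ᵥ x ⬝ᵥ Nᵀ *ᵥ x ≤ sm U s *ᵥ x ⬝ᵥ sm U s *ᵥ x) (x y : ι → ℝ) :
    2 * (y ⬝ᵥ N *ᵥ x) ≤ y ⬝ᵥ sm U s *ᵥ y + x ⬝ᵥ sm U s *ᵥ x := by
  have hR := sm_symm U s
  have hp := ps_sm U hs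
  have hk := fun v => ker_of_quad hU hs (v := v)
  generalize sm U s = R at *
  have := lyapunov (Y := fromBlocks R (-N) (-Nᵀ) R) (D := fromBlocks R 0 0 R)
    (by simp [fromBlocks_transpose, hR]) (by
      intro v
      rw [← Sum.elim_comp_inl_inr v, fromBlocks_mulVec, sumElim_dotProduct_sumElim]
      simpa using add_nonneg (hp _) (hp _)) (by
      intro v
      rw [← Sum.elim_comp_inl_inr v, fromBlocks_mulVec, fromBlocks_mulVec,
        sumElim_dotProduct_sumElim]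
      simp only [Sum.elim_comp_inl, Sum.elim_comp_inr, neg_mulVec, zero_mulVec, add_zero, zero_add,
        add_dotProduct, neg_dotProduct]
      linarith [two_dot_le (N *ᵥ (v ∘ Sum.inr)) (R *ᵥ (v ∘ Sum.inl)),
        two_dot_le (Nᵀ *ᵥ (v ∘ Sum.inl)) (R *ᵥ (v ∘ Sum.inr)), h1 (v ∘ Sum.inr), h2 (v ∘ Sum.inl)])
    (by
      intro v hv
      rw [← Sum.elim_comp_inl_inr v, fromBlocks_mulVec, sumElim_dotProduct_sumElim] at hv
      simp only [Sum.elim_comp_inl, Sum.elim_comp_inr, zero_mulVec, add_zero, zero_add] at hv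
      have a1 := hk (v ∘ Sum.inl) (by linarith [hp (v ∘ Sum.inl), hp (v ∘ Sum.inr)])
      have a2 := hk (v ∘ Sum.inr) (by linarith [hp (v ∘ Sum.inl), hp (v ∘ Sum.inr)])
      have b1 := h1 (v ∘ Sum.inr)
      have b2 := h2 (v ∘ Sum.inl)
      rw [a2, dotProduct_zero] at b1
      rw [a1, dotProduct_zero] at b2
      have c1 := dotProduct_self_eq_zero.1 (le_antisymm b1 (dot_nonneg _))
      have c2 := dotProduct_self_eq_zero.1 (le_antisymm b2 (dot_nonneg _))
      rw [fromBlocks_mulVec]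
      simp [neg_mulVec, a1, a2, c1, c2]) (Sum.elim y x)
  rw [fromBlocks_mulVec, sumElim_dotProduct_sumElim] at this
  simp only [Sum.elim_comp_inl, Sum.elim_comp_inr, neg_mulVec, dotProduct_add,
    dotProduct_neg] at this
  rw [dot_mulVec Nᵀ x y, transpose_transpose, dotProduct_comm (N *ᵥ x) y] at this
  linarith

lemma holder3 {V : Matrix ι ι ℝ} (hV : Og V) (t : ι → ℝ) {K : Matrix ι ι ℝ} (hK : Con K) :
    |(sm V t * K * sm V t * K * sm V t * K).trace| ≤ ∑ a, |t a| ^ 3 := by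
  obtain ⟨E, hE⟩ : ∃ E, E = sm V (fun a => √|t a|) := ⟨_, rfl⟩
  obtain ⟨G, hG⟩ : ∃ G, G = sm V (fun a => t a / √|t a|) := ⟨_, rfl⟩
  have hEE : E * E = sm V (fun a => |t a|) := by
    rw [hE, sm_mul hV]; congr 1; funext a; rw [Real.mul_self_sqrt (abs_nonneg _)]
  have hGG : G * G = sm V (fun a => |t a|) := by
    rw [hG, sm_mul hV]; congr 1; funext a
    rw [div_mul_div_comm, Real.mul_self_sqrt (abs_nonneg _), ← abs_mul_abs_self]
    by_cases h : |t a| = 0
    · simp [h]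
    · field_simp
  have hGE : sm V t = G * E := by
    rw [hG, hE, sm_mul hV]; congr 1; funext a
    by_cases h : t a = 0
    · simp [h]
    · have : √|t a| ≠ 0 := Real.sqrt_ne_zero'.2 (abs_pos.2 h)
      field_simp
  have hEs : Eᵀ = E := by rw [hE, sm_symm]
  have hGs : Gᵀ = G := by rw [hG, sm_symm]
  have hn : ∀ a, 0 ≤ |t a| ^ 3 := fun a => by positivity
  have y1 := trace_young one_pos V V K hV hV t (fun a => |t a|) (fun a => abs_nonneg _)
  have y2 := trace_young one_pos V V Kᵀ hV hV t (fun a => |t a|) (fun a => abs_nonneg _)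
  have c1 := trace_con_le hV hn hK
  have c2 := trace_con_le hV hn hK.transpose
  rw [transpose_transpose] at y2 c2
  have e1 : (sm V t * K * sm V t * K * sm V t * K).trace
      = ((E * K * sm V t) * (K * (sm V t * K * G))).trace := by
    nth_rewrite 1 [hGE]
    simp only [Matrix.mul_assoc]
    rw [trace_mul_comm]
    simp only [Matrix.mul_assoc]
  have e2 : hs (E * K * sm V t) = (sm V t * Kᵀ * sm V (fun a => |t a|) * K * sm V t).trace := by
    rw [hs, ← hEE]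
    simp only [transpose_mul, hEs, sm_symm, Matrix.mul_assoc]
  have e3 : hs (sm V t * K * G) = (sm V t * K * sm V (fun a => |t a|) * Kᵀ * sm V t).trace := by
    rw [← hs_transpose, hs, ← hGG]
    simp only [transpose_mul, hGs, sm_symm, Matrix.mul_assoc, transpose_transpose]
  have h1 := abs_trace_le (E * K * sm V t) (K * (sm V t * K * G))
  have h2 := hs_mul_left hK (sm V t * K * G)
  rw [e1]
  linarith

theorem core {U : Matrix ι ι ℝ} (hU : Og U) {s : ι → ℝ} (hs0 : ∀ a, 0 ≤ s a)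
    {N Z Y T : Matrix ι ι ℝ} (hZ : Con Z) (hT : T = Y * sm U s) (hTs : Tᵀ = T)
    (hL : sm U s * T + T * sm U s = sm U s * Z * sm U s)
    (h1 : ∀ x, N *ᵥ x ⬝ᵥ N *ᵥ x ≤ sm U s *ᵥ x ⬝ᵥ sm U s *ᵥ x)
    (h2 : ∀ x, Nᵀ *ᵥ x ⬝ᵥ Nᵀ *ᵥ x ≤ sm U s *ᵥ x ⬝ᵥ sm U s *ᵥ x) :
    |(Z * N * Z * N * Z * N).trace| ≤ 4 * (T * sm U s * T).trace := by
  obtain ⟨K₂, hK₂, hN₂⟩ := douglas hU s h1
  obtain ⟨K₁', hK₁', hN₁'⟩ := douglas hU s h2
  have hK₁ := hK₁'.transpose
  have hN₁ : N = sm U s * K₁'ᵀ := by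
    rw [← transpose_transpose N, hN₁', transpose_mul, sm_symm]
  generalize K₁'ᵀ = K₁ at *
  have hq := abs_quad_T hU hs0 hZ hT hTs hL
  have hb := bilin hU hs0 h1 h2
  obtain ⟨E, hE⟩ : ∃ E, E = sm U (fun a => √(s a)) := ⟨_, rfl⟩
  have hEs : Eᵀ = E := by rw [hE, sm_symm]
  have hEE : E * E = sm U s := by
    rw [hE, sm_mul hU]; congr 1; funext a; rw [Real.mul_self_sqrt (hs0 a)]
  have hRs := sm_symm U s
  generalize sm U s = R at *
  have hT' : T = R * Yᵀ := by rw [← hTs, hT, transpose_mul, hRs]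
  obtain ⟨V, t, hV, hTV⟩ := exists_sm T hTs
  have hcube : 2 * ∑ a, |t a| ^ 3 ≤ (T * R * T).trace := by
    rw [trace_mul_comm, ← Matrix.mul_assoc, hTV, sm_mul hV, sm_trace_mul, Finset.mul_sum]
    apply Finset.sum_le_sum
    intro a _
    have a1 := hq 2 (by norm_num) (V *ᵥ Pi.single a 1)
    have a2 := hq (-2) (by norm_num) (V *ᵥ Pi.single a 1)
    rw [add_mulVec, smul_mulVec, hTV, sm_col hV, dotProduct_add, dotProduct_smul, dotProduct_smul,
      col_unit hV, ← diag_conj] at a1 a2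
    simp only [smul_eq_mul, mul_one] at a1 a2
    have a3 : 2 * |t a| ≤ (Vᵀ * R * V) a a := by
      rcases abs_cases (t a) with h | h <;> linarith [h.1]
    rw [← abs_mul_abs_self (t a)]
    nlinarith [mul_le_mul_of_nonneg_left a3 (mul_self_nonneg |t a|)]
  have hmix : ∀ X, Con X → |(T * N * T * X).trace| ≤ (T * R * T).trace := by
    intro X hX
    have e1 : (T * N * T * X).trace = (Tᵀ * (N * (T * X))).trace := by
      rw [hTs]; simp only [Matrix.mul_assoc]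
    have e2 : (T * R * T).trace = (Tᵀ * (R * T)).trace := by rw [hTs, Matrix.mul_assoc]
    have e3 : ((T * X)ᵀ * (R * (T * X))).trace ≤ (T * R * T).trace := by
      have := hs_mul_right hX (E * T)
      rw [hs, hs] at this
      simp only [transpose_mul, hEs, hTs, Matrix.mul_assoc] at this ⊢
      simp only [← Matrix.mul_assoc E E, hEE] at this
      exact this
    have key : ∀ c : ℝ, c * c = 1 → 2 * (c * (Tᵀ * (N * (T * X))).trace) ≤
        (Tᵀ * (R * T)).trace + ((T * X)ᵀ * (R * (T * X))).trace := by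
      intro c hc
      rw [trace_eq_sum, trace_eq_sum, trace_eq_sum, Finset.mul_sum, Finset.mul_sum,
        ← Finset.sum_add_distrib]
      apply Finset.sum_le_sum
      intro e _
      have := hb ((T * X) *ᵥ Pi.single e 1) (c • T *ᵥ Pi.single e 1)
      simp only [mulVec_smul, smul_dotProduct, dotProduct_smul, smul_eq_mul, ← mul_assoc, hc,
        one_mul] at this
      simp only [← mulVec_mulVec] at this ⊢
      linarith
    have k1 := key 1 (by norm_num)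
    have k2 := key (-1) (by norm_num)
    rw [e1, abs_le]
    constructor <;> linarith
  have hNZN : N * Z * N = N * (Y + Yᵀ) * N := by
    calc N * Z * N = K₂ * (R * Z * R) * K₁ := by
          nth_rewrite 1 [hN₂]; nth_rewrite 1 [hN₁]; simp only [Matrix.mul_assoc]
      _ = K₂ * (R * (Y * R) + R * Yᵀ * R) * K₁ := by rw [← hL, ← hT, ← hT']
      _ = (K₂ * R) * (Y + Yᵀ) * (R * K₁) := by
          simp only [Matrix.mul_add, Matrix.add_mul, Matrix.mul_assoc]
      _ = _ := by rw [← hN₂, ← hN₁]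
  have ha : Y * N = T * K₁ := by rw [hN₁, hT, Matrix.mul_assoc]
  have hb' : N * Yᵀ = K₂ * T := by rw [hN₂, hT', Matrix.mul_assoc]
  obtain ⟨φ, hφ⟩ : ∃ φ : Matrix ι ι ℝ → Matrix ι ι ℝ → Matrix ι ι ℝ → ℝ,
      ∀ A B C, φ A B C = (A * N * B * N * C * N).trace := ⟨_, fun _ _ _ => rfl⟩
  have cyc : ∀ A B C, φ A B C = φ B C A := by
    intro A B C
    rw [hφ, hφ]
    simp only [Matrix.mul_assoc]
    rw [← Matrix.mul_assoc A, trace_mul_comm]
    simp only [Matrix.mul_assoc]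
  have spl : ∀ A C, φ A Z C = φ A Y C + φ A Yᵀ C := by
    intro A C
    rw [hφ, hφ, hφ, Matrix.mul_assoc A N Z, Matrix.mul_assoc A, hNZN]
    simp only [Matrix.mul_add, Matrix.add_mul, Matrix.mul_assoc, trace_add]
  have spl1 : ∀ A C, φ Z A C = φ Y A C + φ Yᵀ A C := by
    intro A C
    rw [← cyc C, spl, cyc C, cyc C]
  have spl3 : ∀ A C, φ A C Z = φ A C Y + φ A C Yᵀ := by
    intro A C
    rw [cyc A, spl, cyc A, cyc A]
  have e0 : (Z * N * Z * N * Z * N).trace = (T * K₁ * T * K₁ * T * K₁).trace +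
      (T * K₂ * T * K₂ * T * K₂).trace + 3 * (T * N * T * (K₁ * Z * K₂)).trace := by
    have f1 : (T * K₁ * T * K₁ * T * K₁).trace = φ Y Y Y := by
      rw [hφ, Matrix.mul_assoc _ T K₁, Matrix.mul_assoc _ T K₁, ← ha]
      simp only [Matrix.mul_assoc]
    have f2 : (T * K₂ * T * K₂ * T * K₂).trace = φ Yᵀ Yᵀ Yᵀ := by
      rw [hφ, trace_mul_comm, trace_mul_comm _ N]
      simp only [← Matrix.mul_assoc]
      rw [Matrix.mul_assoc _ K₂ T, Matrix.mul_assoc _ K₂ T, ← hb']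
      simp only [Matrix.mul_assoc]
    have f3 : (T * N * T * (K₁ * Z * K₂)).trace = φ Yᵀ Y Z := by
      rw [hφ, ← Matrix.mul_assoc, trace_mul_comm, trace_mul_comm _ N]
      simp only [← Matrix.mul_assoc]
      rw [Matrix.mul_assoc _ T K₁, ← hb', ← ha]
      simp only [Matrix.mul_assoc]
    rw [f1, f2, f3, ← hφ, spl, spl1, spl1, spl3, spl3, spl3, spl3]
    linarith [cyc Y Y Yᵀ, cyc Y Yᵀ Y, cyc Y Yᵀ Yᵀ, cyc Yᵀ Yᵀ Y]
  rw [e0]
  have b1 := holder3 hV t hK₁
  have b2 := holder3 hV t hK₂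
  rw [← hTV] at b1 b2
  have b3 := hmix _ ((hK₁.mul hZ).mul hK₂)
  rw [abs_le] at b1 b2 b3 ⊢
  constructor <;> linarith [b1.1, b1.2, b2.1, b2.2, b3.1, b3.2]

end Vale.Agent.P075
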