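import Vale.Agent.P075.Step

/-! The discrete dyadic triangular form. -/

namespace Vale.Agent.P075

open Matrix Finset

section
variable {ι : Type} [Fintype ι] [DecidableEq ι]

lemma bel_le {N : Matrix ι ι ℝ} {ρ : ℝ} (hρ : 0 ≤ ρ) (h : 2 * ∑ i, ∑ k, N i k ^ 2 ≤ ρ ^ 2) :
    bel N ≤ ρ ^ 3 := by
  obtain ⟨U, s, hU, hs, e, hb⟩ := bel_spec N
  have e1 : ∑ a, s a * s a = 2 * ∑ i, ∑ k, N i k ^ 2 := by
    rw [← sm_trace hU, ← sm_mul hU, ← e, Hm, trace_add, trace_mul_comm Nᵀ, two_mul]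
    simp [trace, Matrix.mul_apply, sq]
  have e2 : ∀ a, s a ≤ ρ := by
    intro a
    have : s a * s a ≤ ∑ a, s a * s a :=
      single_le_sum (f := fun a => s a * s a) (fun a _ => mul_self_nonneg _) (mem_univ a)
    exact abs_le_of_sq_le_sq' (by nlinarith) hρ |>.2
  calc bel N ≤ ∑ a, ρ * (s a * s a) := by
        rw [hb]
        exact sum_le_sum fun a _ => by nlinarith [e2 a, mul_self_nonneg (s a)]
    _ = ρ * ∑ a, s a * s a := by rw [mul_sum]
    _ ≤ ρ * ρ ^ 2 := mul_le_mul_of_nonneg_left (by linarith) hρ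
    _ = _ := by ring

lemma hsum_of {κ : Type} [Fintype κ] (N : Matrix ι ι ℝ) (p : ι → ℝ) (q : κ → ι → ℝ)
    (hq : ∀ c a, q c a * q c a = q c a)
    (hk : ∀ i i' k, (N i k * N i' k ≠ 0 ∨ N k i * N k i' ≠ 0) →
      ∑ c, q c i * q c i' * q c k = p i * p i' + (1 - p i) * (1 - p i')) :
    diagonal p * Hm N * diagonal p + (1 - diagonal p) * Hm N * (1 - diagonal p) =
      ∑ c, Hm (diagonal (q c) * N * diagonal (q c)) := by
  ext i i'
  rw [← diagonal_one, diagonal_sub]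
  simp only [Matrix.add_apply, diagonal_mul, mul_diagonal, Matrix.sum_apply]
  simp only [Hm, Matrix.add_apply, Matrix.mul_apply (M := diagonal _ * N * diagonal _),
    Matrix.mul_apply (M := (diagonal _ * N * diagonal _)ᵀ), Matrix.mul_apply (M := N),
    Matrix.mul_apply (M := Nᵀ), transpose_apply, diagonal_mul, mul_diagonal, ← sum_add_distrib]
  rw [sum_comm, mul_sum, mul_sum, sum_mul, sum_mul, ← sum_add_distrib]
  apply sum_congr rfl
  intro k _
  have : ∀ c, q c i * N i k * q c k * (q c i' * N i' k * q c k) +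
      q c k * N k i * q c i * (q c k * N k i' * q c i') =
      q c i * q c i' * q c k * (N i k * N i' k + N k i * N k i') := by
    intro c
    linear_combination (q c i * q c i' * (N i k * N i' k + N k i * N k i')) * hq c k
  simp only [this]
  rw [← sum_mul]
  by_cases h : N i k * N i' k ≠ 0 ∨ N k i * N k i' ≠ 0
  · rw [hk i i' k h]; ring
  · push Not at h
    rw [h.1, h.2]; ring

end

/-- the triple of indices with vanishing xor -/
def tri (n0 n1 : ℕ) : Fin 3 → ℕ := ![n0, n1, n0 ^^^ n1]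

/-- parity pattern of a child -/
def cb (c : Fin 2 × Fin 2) : Fin 3 → ℕ := ![c.1, c.2, (c.1 + c.2) % 2]

lemma tri_child (n0 n1 : ℕ) (c : Fin 2 × Fin 2) (v : Fin 3) :
    tri (2 * n0 + c.1) (2 * n1 + c.2) v = 2 * tri n0 n1 v + cb c v := by
  obtain ⟨i, k⟩ := c
  fin_cases v
  · rfl
  · rfl
  · show (2 * n0 + i) ^^^ (2 * n1 + k) = 2 * (n0 ^^^ n1) + (i + k) % 2
    have h1 := @Nat.xor_div_two (2 * n0 + i) (2 * n1 + k)
    have h2 := @Nat.xor_mod_two_eq (2 * n0 + i) (2 * n1 + k)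
    have hi := i.2
    have hk := k.2
    rw [show (2 * n0 + i) / 2 = n0 by omega, show (2 * n1 + k) / 2 = n1 by omega] at h1
    omega

/-- discrete Haar function at scale `2^(j+1)` -/
def hd (j n x : ℕ) : ℝ := (if x / 2 ^ j = 2 * n then 1 else 0) - (if x / 2 ^ j = 2 * n + 1 then 1 else 0)

/-- discrete form of one triple of intervals -/
def dL (a : Fin 3 → ℕ → ℕ → ℝ) (m j n0 n1 : ℕ) : ℝ :=
  ∑ x ∈ range m, ∑ y ∈ range m, ∑ z ∈ range m,
    a 0 x y * a 1 y z * a 2 z x * (hd j n0 x * hd j n1 y * hd j (n0 ^^^ n1) z)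

/-- the cyclic block matrix -/
def N0 (a : Fin 3 → ℕ → ℕ → ℝ) (m : ℕ) : Matrix (Fin 3 × Fin m) (Fin 3 × Fin m) ℝ :=
  of fun i k => if k.1 = i.1 + 1 then a i.1 i.2 k.2 else 0

/-- indicator of a triple of intervals -/
def pr (m j : ℕ) (n : Fin 3 → ℕ) (i : Fin 3 × Fin m) : ℝ := if i.2 / 2 ^ j = n i.1 then 1 else 0

/-- the localised matrix -/
def Nl (a : Fin 3 → ℕ → ℕ → ℝ) (m j n0 n1 : ℕ) : Matrix (Fin 3 × Fin m) (Fin 3 × Fin m) ℝ :=
  diagonal (pr m j (tri n0 n1)) * N0 a m * diagonal (pr m j (tri n0 n1))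

lemma trace_cube (a : Fin 3 → ℕ → ℕ → ℝ) (m : ℕ) (g : Fin 3 → ℕ → ℝ) {G : Matrix _ _ ℝ}
    (hG : G = diagonal fun i : Fin 3 × Fin m => g i.1 i.2) :
    (G * N0 a m * G * N0 a m * G * N0 a m).trace = 3 * ∑ x ∈ range m, ∑ y ∈ range m, ∑ z ∈ range m,
      a 0 x y * a 1 y z * a 2 z x * (g 0 x * g 1 y * g 2 z) := by
  obtain ⟨A, hA⟩ : ∃ A, A = G * N0 a m := ⟨_, rfl⟩
  have hA' : ∀ i k, A i k = if k.1 = i.1 + 1 then g i.1 i.2 * a i.1 i.2 k.2 else 0 := by
    intro i k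
    rw [hA, hG, diagonal_mul, N0, of_apply]
    split_ifs <;> simp
  have : G * N0 a m * G * N0 a m * G * N0 a m = A * (A * A) := by
    rw [hA]; simp only [Matrix.mul_assoc]
  rw [this]
  simp only [trace, diag_apply, Matrix.mul_apply, hA', mul_sum, Fintype.sum_prod_type,
    Fin.sum_univ_three]
  simp only [sum_range]
  simp
  have cyc : ∀ f : Fin m → Fin m → Fin m → ℝ, ∑ x, ∑ y, ∑ z, f x y z = ∑ y, ∑ z, ∑ x, f x y z := by
    intro f
    rw [sum_comm]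
    exact sum_congr rfl fun y _ => sum_comm
  simp only [mul_sum]
  rw [← cyc fun x y z => g 1 y * a 1 y z * (g 2 z * a 2 z x * (g 0 x * a 0 x y)),
    cyc fun z x y => g 2 z * a 2 z x * (g 0 x * a 0 x y * (g 1 y * a 1 y z))]
  simp only [← sum_add_distrib]
  refine sum_congr rfl fun x _ => sum_congr rfl fun y _ => sum_congr rfl fun z _ => by ring

lemma pr_sq (m j : ℕ) (n : Fin 3 → ℕ) (i : Fin 3 × Fin m) : pr m j n i * pr m j n i = pr m j n i := by
  unfold pr; split_ifs <;> simp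

lemma cb_lt (c : Fin 2 × Fin 2) (v : Fin 3) : cb c v < 2 := by
  revert c v; decide

lemma dstep (a : Fin 3 → ℕ → ℕ → ℝ) (m j n0 n1 : ℕ) :
    bel (Nl a m (j + 1) n0 n1) + 9 / 8 * |dL a m j n0 n1| ≤
      2 * ∑ c : Fin 2 × Fin 2, bel (Nl a m j (2 * n0 + c.1) (2 * n1 + c.2)) := by
  obtain ⟨q, hq⟩ : ∃ q : Fin 2 × Fin 2 → Fin 3 × Fin m → ℝ,
      ∀ c, q c = pr m j (tri (2 * n0 + c.1) (2 * n1 + c.2)) := ⟨_, fun _ => rfl⟩
  obtain ⟨π, hπ⟩ : ∃ π, π = pr m (j + 1) (tri n0 n1) := ⟨_, rfl⟩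
  have hdiv : ∀ x : ℕ, x / 2 ^ (j + 1) = x / 2 ^ j / 2 := fun x => by
    rw [pow_succ, Nat.div_div_eq_div_mul]
  have hq' : ∀ c i, q c i = π i * if i.2 / 2 ^ j % 2 = cb c i.1 then 1 else 0 := by
    intro c i
    rw [hq, hπ, pr, pr, tri_child, hdiv]
    have := cb_lt c i.1
    split_ifs <;> first | omega | simp
  have hππ : ∀ i, π i * π i = π i := by rw [hπ]; exact pr_sq _ _ _
  have hπ1 : ∀ i, π i ≠ 0 → π i = 1 := fun i h => mul_left_cancel₀ h (by rw [hππ, mul_one])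
  have hN : ∀ c, diagonal (q c) * Nl a m (j + 1) n0 n1 * diagonal (q c) =
      Nl a m j (2 * n0 + c.1) (2 * n1 + c.2) := by
    intro c
    have : ∀ i, q c i * π i = q c i := fun i => by
      rw [hq', mul_right_comm, hππ]
    rw [Nl, Nl, ← hq, ← hπ]
    ext i k
    simp only [diagonal_mul, mul_diagonal]
    linear_combination (N0 a m i k * π k * q c k) * this i + (q c i * N0 a m i k) * this k
  have hqq : ∀ c i, q c i * q c i = q c i := fun c => by rw [hq]; exact pr_sq _ _ _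
  obtain ⟨p, hp⟩ : ∃ p : Fin 3 × Fin m → ℝ,
      ∀ i, p i = if (i.2 : ℕ) / 2 ^ j % 2 = 0 then 1 else 0 :=
    ⟨_, fun _ => rfl⟩
  have key := step (Nl a m (j + 1) n0 n1) p (fun i => by rw [hp]; split_ifs <;> simp) q hqq
    (fun i => by
      simp only [hq']
      rw [← mul_sum]
      have h1 : π i ≤ 1 := by rw [hπ, pr]; split_ifs <;> simp
      have h2 : ∑ c, (if i.2 / 2 ^ j % 2 = cb c i.1 then 1 else 0 : ℝ) = 2 := by
        obtain ⟨v, x⟩ := i
        rcases Nat.mod_two_eq_zero_or_one (x / 2 ^ j) with h | h <;> fin_cases v <;>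
          simp only [h, Fintype.sum_prod_type, Fin.sum_univ_two, cb] <;> norm_num
      rw [h2]; linarith)
    (hsum_of _ p q hqq (fun i i' k h => by
      have hne : ∀ i k, Nl a m (j + 1) n0 n1 i k ≠ 0 → π i = 1 ∧ π k = 1 ∧ k.1 = i.1 + 1 := by
        intro i k h
        rw [Nl, ← hπ, mul_diagonal, diagonal_mul] at h
        refine ⟨hπ1 _ fun h0 => h (by simp [h0]), hπ1 _ fun h0 => h (by simp [h0]), ?_⟩
        by_contra h0
        exact h (by simp [N0, h0])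
      have h' : π i = 1 ∧ π i' = 1 ∧ π k = 1 ∧ i'.1 = i.1 ∧ k.1 ≠ i.1 := by
        rcases h with h | h
        · obtain ⟨a1, a2, a3⟩ := hne _ _ (left_ne_zero_of_mul h)
          obtain ⟨b1, b2, b3⟩ := hne _ _ (right_ne_zero_of_mul h)
          exact ⟨a1, b1, a2, add_right_cancel (b3.symm.trans a3), by rw [a3]; simp⟩
        · obtain ⟨a1, a2, a3⟩ := hne _ _ (left_ne_zero_of_mul h)
          obtain ⟨b1, b2, b3⟩ := hne _ _ (right_ne_zero_of_mul h)
          exact ⟨a2, b2, a1, b3.trans a3.symm, by rw [a3]; simp⟩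
      obtain ⟨a1, a2, a3, a4, a5⟩ := h'
      simp only [hq', hp, a1, a2, a3, a4, one_mul]
      generalize i.1 = v at *
      generalize k.1 = w at *
      rcases Nat.mod_two_eq_zero_or_one (i.2 / 2 ^ j) with h1 | h1 <;>
      rcases Nat.mod_two_eq_zero_or_one (i'.2 / 2 ^ j) with h2 | h2 <;>
      rcases Nat.mod_two_eq_zero_or_one (k.2 / 2 ^ j) with h3 | h3 <;>
      rw [h1, h2, h3] <;> fin_cases v <;> fin_cases w <;>
      first
        | exact absurd rfl a5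
        | (simp only [Fintype.sum_prod_type, Fin.sum_univ_two, cb]; norm_num))) rfl
  simp only [hN] at key
  obtain ⟨Z, hZ⟩ : ∃ Z : Matrix _ _ ℝ, Z = diagonal fun a => 2 * p a - 1 := ⟨_, rfl⟩
  rw [← hZ] at key
  have hG : diagonal π * Z * diagonal π =
      diagonal fun i : Fin 3 × Fin m => hd j (tri n0 n1 i.1) i.2 := by
    rw [hZ, diagonal_mul_diagonal, diagonal_mul_diagonal]
    congr 1
    funext i
    rw [mul_right_comm, hππ, hπ, pr, hp, hd, hdiv]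
    split_ifs <;> first | omega | norm_num
  have := trace_cube a m (fun v => hd j (tri n0 n1 v)) hG
  have e : (Z * Nl a m (j + 1) n0 n1 * Z * Nl a m (j + 1) n0 n1 * Z * Nl a m (j + 1) n0 n1).trace =
      3 * dL a m j n0 n1 := by
    rw [dL, Nl, ← hπ, ← Matrix.mul_assoc, trace_mul_comm]
    refine Eq.trans ?_ this
    simp only [Matrix.mul_assoc]
  rw [e, abs_mul] at key
  norm_num at key ⊢
  linarith

lemma sum_ind_le (m n : ℕ) (f : ℕ → ℝ) (hf : 0 ≤ f n) :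
    ∑ x : Fin m, (if (x : ℕ) = n then f x else 0) ≤ f n := by
  rw [← sum_range fun x => if x = n then f x else 0, sum_ite_eq']
  split_ifs <;> simp [hf]

lemma dbase (a : Fin 3 → ℕ → ℕ → ℝ) (m n0 n1 : ℕ) : bel (Nl a m 0 n0 n1) ≤
    72 * (|a 0 n0 n1| ^ 3 + |a 1 n1 (n0 ^^^ n1)| ^ 3 + |a 2 (n0 ^^^ n1) n0| ^ 3) := by
  have h1 : ∀ v : Fin 3, ∑ x : Fin m, ∑ k, Nl a m 0 n0 n1 (v, x) k ^ 2 ≤
      a v (tri n0 n1 v) (tri n0 n1 (v + 1)) ^ 2 := by
    intro v
    refine le_trans (sum_le_sum fun x _ => ?_)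
      (sum_ind_le m _ (fun x => a v x (tri n0 n1 (v + 1)) ^ 2) (sq_nonneg _))
    rw [Fintype.sum_prod_type, sum_eq_single (v + 1)]
    · split_ifs with h
      · refine le_trans (sum_le_sum fun y _ => ?_)
          (sum_ind_le m _ (fun y => a v x y ^ 2) (sq_nonneg _))
        simp only [Nl, mul_diagonal, diagonal_mul, pr, N0, of_apply, pow_zero, Nat.div_one, h]
        split_ifs <;> simp
      · simp [Nl, pr, h]
    · intro w _ hw
      simp [Nl, N0, hw]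
    · simp
  have h0 := h1 0
  have h2 := h1 2
  replace h1 := h1 1
  change _ ≤ a 0 n0 n1 ^ 2 at h0
  change _ ≤ a 1 n1 (n0 ^^^ n1) ^ 2 at h1
  change _ ≤ a 2 (n0 ^^^ n1) n0 ^ 2 at h2
  rw [← sq_abs] at h0 h1 h2
  have p0 := abs_nonneg (a 0 n0 n1)
  have p1 := abs_nonneg (a 1 n1 (n0 ^^^ n1))
  have p2 := abs_nonneg (a 2 (n0 ^^^ n1) n0)
  generalize |a 0 n0 n1| = x at *
  generalize |a 1 n1 (n0 ^^^ n1)| = y at *
  generalize |a 2 (n0 ^^^ n1) n0| = z at *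
  refine (bel_le (ρ := 2 * (x + y + z)) (by positivity) ?_).trans ?_
  · rw [Fintype.sum_prod_type, Fin.sum_univ_three]
    nlinarith [mul_nonneg p0 p1, mul_nonneg p1 p2, mul_nonneg p0 p2]
  · nlinarith [mul_nonneg p0 (sq_nonneg (x - y)), mul_nonneg p0 (sq_nonneg (x - z)),
      mul_nonneg p0 (sq_nonneg (y - z)), mul_nonneg p1 (sq_nonneg (x - y)),
      mul_nonneg p1 (sq_nonneg (x - z)), mul_nonneg p1 (sq_nonneg (y - z)),
      mul_nonneg p2 (sq_nonneg (x - y)), mul_nonneg p2 (sq_nonneg (x - z)),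
      mul_nonneg p2 (sq_nonneg (y - z))]

lemma sum_double (K : ℕ) (f : ℕ → ℝ) :
    ∑ n ∈ range K, ∑ c : Fin 2, f (2 * n + c) = ∑ n ∈ range (2 * K), f n := by
  induction K with
  | zero => simp
  | succ K ih =>
    rw [sum_range_succ, ih, mul_add, mul_one, sum_range_succ, sum_range_succ, Fin.sum_univ_two]
    simp [add_assoc]

lemma telescope (a : Fin 3 → ℕ → ℕ → ℝ) (m J K : ℕ) :
    (1 / 2) ^ J * ∑ n0 ∈ range K, ∑ n1 ∈ range K, bel (Nl a m J n0 n1) +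
      9 / 8 * ∑ j ∈ range J, (1 / 2) ^ (j + 1) * ∑ n0 ∈ range K, ∑ n1 ∈ range K, |dL a m j n0 n1| ≤
      ∑ n0 ∈ range (2 ^ J * K), ∑ n1 ∈ range (2 ^ J * K), bel (Nl a m 0 n0 n1) := by
  induction J generalizing K with
  | zero => simp
  | succ J ih =>
    have h1 := ih (2 * K)
    rw [← mul_assoc, ← pow_succ] at h1
    refine le_trans ?_ h1
    have h2 : ∑ n0 ∈ range K, ∑ n1 ∈ range K, bel (Nl a m (J + 1) n0 n1) +
        9 / 8 * ∑ n0 ∈ range K, ∑ n1 ∈ range K, |dL a m J n0 n1| ≤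
        2 * ∑ n0 ∈ range (2 * K), ∑ n1 ∈ range (2 * K), bel (Nl a m J n0 n1) := by
      simp only [← sum_double, mul_sum, ← sum_add_distrib]
      refine sum_le_sum fun n0 _ => ?_
      rw [sum_comm]
      refine sum_le_sum fun n1 _ => ?_
      have := dstep a m J n0 n1
      rw [Fintype.sum_prod_type] at this
      simpa only [mul_sum] using this
    have h3 : ∑ j ∈ range J, (1 / 2 : ℝ) ^ (j + 1) * ∑ n0 ∈ range K, ∑ n1 ∈ range K,
        |dL a m j n0 n1| ≤ ∑ j ∈ range J, (1 / 2) ^ (j + 1) * ∑ n0 ∈ range (2 * K),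
        ∑ n1 ∈ range (2 * K), |dL a m j n0 n1| := by
      refine sum_le_sum fun j _ => mul_le_mul_of_nonneg_left ?_ (by positivity)
      have hs : range K ⊆ range (2 * K) := range_subset_range.2 (by omega)
      exact (sum_le_sum fun n0 _ => sum_le_sum_of_subset_of_nonneg hs fun _ _ _ => abs_nonneg _).trans
        (sum_le_sum_of_subset_of_nonneg hs fun _ _ _ => sum_nonneg fun _ _ => abs_nonneg _)
    rw [sum_range_succ, pow_succ]
    have := mul_le_mul_of_nonneg_left h2 (by positivity : (0 : ℝ) ≤ (1 / 2) ^ J)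
    nlinarith

lemma sum_xor (M n : ℕ) (hn : n < 2 ^ M) (f : ℕ → ℝ) :
    ∑ x ∈ range (2 ^ M), f (x ^^^ n) = ∑ x ∈ range (2 ^ M), f x :=
  sum_nbij' (· ^^^ n) (· ^^^ n) (fun x hx => by simpa using Nat.xor_lt_two_pow (by simpa using hx) hn)
    (fun x hx => by simpa using Nat.xor_lt_two_pow (by simpa using hx) hn) (fun x _ => by simp)
    (fun x _ => by simp) (fun x _ => rfl)

theorem disc (a : Fin 3 → ℕ → ℕ → ℝ) (m J M : ℕ) :
    ∑ j ∈ range J, (1 / 2) ^ (j + 1) * ∑ n0 ∈ range (2 ^ M), ∑ n1 ∈ range (2 ^ M), |dL a m j n0 n1| ≤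
      64 * ∑ x ∈ range (2 ^ (J + M)), ∑ y ∈ range (2 ^ (J + M)),
        (|a 0 x y| ^ 3 + |a 1 x y| ^ 3 + |a 2 x y| ^ 3) := by
  have h1 := telescope a m J (2 ^ M)
  rw [← pow_add] at h1
  have h2 : 0 ≤ (1 / 2) ^ J * ∑ n0 ∈ range (2 ^ M), ∑ n1 ∈ range (2 ^ M), bel (Nl a m J n0 n1) :=
    mul_nonneg (by positivity) (sum_nonneg fun _ _ => sum_nonneg fun _ _ => bel_nonneg _)
  have h3 := sum_le_sum fun n0 (_ : n0 ∈ range (2 ^ (J + M))) =>
    sum_le_sum fun n1 (_ : n1 ∈ range (2 ^ (J + M))) => dbase a m n0 n1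
  simp only [← mul_sum, sum_add_distrib] at h3 ⊢
  have e1 : ∑ n0 ∈ range (2 ^ (J + M)), ∑ n1 ∈ range (2 ^ (J + M)), |a 1 n1 (n0 ^^^ n1)| ^ 3 =
      ∑ x ∈ range (2 ^ (J + M)), ∑ y ∈ range (2 ^ (J + M)), |a 1 x y| ^ 3 := by
    rw [sum_comm]
    exact sum_congr rfl fun x hx => sum_xor _ x (by simpa using hx) fun y => |a 1 x y| ^ 3
  have e2 : ∑ n0 ∈ range (2 ^ (J + M)), ∑ n1 ∈ range (2 ^ (J + M)), |a 2 (n0 ^^^ n1) n0| ^ 3 =
      ∑ x ∈ range (2 ^ (J + M)), ∑ y ∈ range (2 ^ (J + M)), |a 2 x y| ^ 3 := by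
    rw [sum_comm (s := range _) (f := fun x y => |a 2 x y| ^ 3)]
    refine sum_congr rfl fun y hy => ?_
    simp only [Nat.xor_comm y]
    exact sum_xor _ y (by simpa using hy) fun x => |a 2 x y| ^ 3
  rw [e1, e2] at h3
  linarith

end Vale.Agent.P075
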