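import Vale.Agent.P075.Cont

/-! Homogenisation and removal of Borel measurability. -/

namespace Vale.Agent.P075

open MeasureTheory Set

variable {F : Fin 3 → ℝ × ℝ → ℝ} {A B : ℝ}

lemma nrm3_cube {f : ℝ × ℝ → ℝ} (hf : MemLp f 3 (volume.restrict (Ici (0 : ℝ) ×ˢ Ici (0 : ℝ)))) :
    IntegrableOn (fun p => |f p| ^ 3) (Ici 0 ×ˢ Ici 0) ∧
      ∫ p in Ici 0 ×ˢ Ici 0, |f p| ^ 3 = nrm3 f ^ 3 := by
  refine ⟨hf.integrable_norm_pow (p := 3) (by norm_num), ?_⟩
  have h0 : 0 ≤ ∫ p in Ici (0 : ℝ) ×ˢ Ici (0 : ℝ), |f p| ^ 3 := integral_nonneg fun p => by positivity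
  rw [nrm3, hf.eLpNorm_eq_integral_rpow_norm (by norm_num) (by norm_num)]
  have e : (3 : ENNReal).toReal = (3 : ℕ) := by norm_num
  simp only [e, Real.rpow_natCast, Real.norm_eq_abs]
  rw [ENNReal.toReal_ofReal (Real.rpow_nonneg h0 _), Real.rpow_inv_natCast_pow h0 (by norm_num)]

theorem mult (hm : ∀ v, Measurable (F v)) (hB : ∀ v p, |F v p| ≤ B)
    (hA : ∀ v p, A ≤ p.1 → F v p = 0)
    (hp : ∀ v, MemLp (F v) 3 (volume.restrict (Ici (0 : ℝ) ×ˢ Ici (0 : ℝ)))) (S : Finset ℤ)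
    {ε : ℤ → ℝ} (hε : ∀ k ∈ S, |ε k| ≤ 1) : |Lam S ε F| ≤ 192 * ∏ v, nrm3 (F v) := by
  have hn : ∀ v, 0 ≤ nrm3 (F v) := fun v => ENNReal.toReal_nonneg
  have key : ∀ η : ℝ, 0 < η → |Lam S ε F| ≤ 192 * ∏ v, (nrm3 (F v) + η) := by
    intro η hη
    obtain ⟨s, hs⟩ : ∃ s : Fin 3 → ℝ, ∀ v, s v = (nrm3 (F v) + η)⁻¹ := ⟨_, fun _ => rfl⟩
    have hpos : ∀ v, 0 < nrm3 (F v) + η := fun v => by linarith [hn v]
    have hs0 : ∀ v, 0 < s v := fun v => by rw [hs]; exact inv_pos.2 (hpos v)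
    have hs1 : ∀ v, s v ≤ η⁻¹ := fun v => by rw [hs]; exact inv_anti₀ hη (by linarith [hn v])
    have ec : ∀ v p, |s v * F v p| ^ 3 = s v ^ 3 * |F v p| ^ 3 := fun v p => by
      rw [abs_mul, abs_of_pos (hs0 v), mul_pow]
    have := additive (F := fun v p => s v * F v p) (A := A) (B := η⁻¹ * B)
      (fun v => (hm v).const_mul _) (fun v p => by
        rw [abs_mul, abs_of_pos (hs0 v)]
        exact mul_le_mul (hs1 v) (hB v p) (abs_nonneg _) (by positivity))
      (fun v p h => by rw [hA v p h, mul_zero])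
      (fun v => by simp only [ec]; exact (nrm3_cube (hp v)).1.const_mul _) S hε
    have e : Lam S ε (fun v p => s v * F v p) = (s 0 * s 1 * s 2) * Lam S ε F := by
      rw [Lam, Lam, Finset.mul_sum]
      refine Finset.sum_congr rfl fun k _ => ?_
      rw [mul_left_comm, ← tsum_mul_left (a := s 0 * s 1 * s 2)]
      congr 2
      funext n
      rw [Lform, Lform, mul_left_comm, ← integral_const_mul (s 0 * s 1 * s 2)]
      congr 2
      funext x
      ring
    have b : ∀ v, ∫ p in Ici 0 ×ˢ Ici 0, |s v * F v p| ^ 3 ≤ 1 := by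
      intro v
      simp only [ec]
      rw [integral_const_mul, (nrm3_cube (hp v)).2, ← mul_pow]
      apply pow_le_one₀ (mul_nonneg (hs0 v).le (hn v))
      rw [hs, inv_mul_le_iff₀ (hpos v)]
      linarith
    have h3 := mul_pos (mul_pos (hs0 0) (hs0 1)) (hs0 2)
    rw [e, abs_mul, abs_of_pos h3, Fin.sum_univ_three] at this
    apply le_of_mul_le_mul_left _ h3
    have : s 0 * s 1 * s 2 * (192 * ∏ v, (nrm3 (F v) + η)) = 192 := by
      rw [Fin.prod_univ_three, hs, hs, hs]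
      have := hpos 0
      have := hpos 1
      have := hpos 2
      field_simp
    linarith [b 0, b 1, b 2]
  have hc : Continuous fun η : ℝ => 192 * ∏ v, (nrm3 (F v) + η) := by fun_prop
  have ht := (hc.tendsto 0).mono_left (nhdsWithin_le_nhds (s := Ioi 0))
  simp only [add_zero] at ht
  exact ge_of_tendsto ht (eventually_nhdsWithin_of_forall key)

lemma Lform_congr {G : Fin 3 → ℝ × ℝ → ℝ} (h : ∀ v, F v =ᵐ[volume] G v) (k : ℤ) (n : ℕ × ℕ × ℕ) :
    Lform F k n = Lform G k n := by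
  have q0 : Measure.QuasiMeasurePreserving (fun x : ℝ × ℝ × ℝ => (x.1, x.2.1)) :=
    QuasiMeasurePreserving.prodMap (.id _) Measure.quasiMeasurePreserving_fst
  have q1 : Measure.QuasiMeasurePreserving (fun x : ℝ × ℝ × ℝ => (x.2.1, x.2.2)) :=
    Measure.quasiMeasurePreserving_snd
  have q2 : Measure.QuasiMeasurePreserving (fun x : ℝ × ℝ × ℝ => (x.2.2, x.1)) :=
    Measure.measurePreserving_swap.quasiMeasurePreserving.comp
      (QuasiMeasurePreserving.prodMap (.id _) Measure.quasiMeasurePreserving_snd)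
  rw [Lform, Lform]
  congr 1
  apply integral_congr_ae
  apply ae_restrict_of_ae
  filter_upwards [q0.ae (h 0), q1.ae (h 1), q2.ae (h 2)] with x h0 h1 h2
  rw [h0, h1, h2]

theorem main (S : Finset ℤ) (ε : ℤ → ℝ) (F : Fin 3 → ℝ × ℝ → ℝ) (hε : ∀ k ∈ S, |ε k| ≤ 1)
    (hm : ∀ v, AEMeasurable (F v) volume) (hB : ∀ v, ∃ B, ∀ p, |F v p| ≤ B)
    (hc : ∀ v, HasCompactSupport (F v)) :
    (∀ k, Summable fun n : Adm => Lform F k n) ∧ |Lam S ε F| ≤ 192 * ∏ v, nrm3 (F v) := by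
  choose b hb using hB
  have hB : ∀ v p, |F v p| ≤ ∑ v, b v := fun v p => (hb v p).trans
    (Finset.single_le_sum (fun w _ => (abs_nonneg _).trans (hb w 0)) (Finset.mem_univ v))
  generalize ∑ v, b v = B at hB
  have : ∀ v, ∃ a : ℝ, ∀ p, a ≤ p.1 → F v p = 0 := by
    intro v
    obtain ⟨a, ha⟩ := ((hc v).isCompact.image continuous_fst).bddAbove
    refine ⟨a + 1, fun p h => ?_⟩
    by_contra h0
    linarith [ha ⟨p, subset_tsupport _ h0, rfl⟩]
  choose a ha using this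
  have hA : ∀ v p, ∑ v, |a v| ≤ p.1 → F v p = 0 := fun v p h => ha v p ((le_abs_self _).trans
    ((Finset.single_le_sum (fun w _ => abs_nonneg (a w)) (Finset.mem_univ v)).trans h))
  generalize ∑ v, |a v| = A at hA
  refine ⟨fun k => ?_, ?_⟩
  · obtain ⟨K, hK⟩ := exists_nat_ge (A / 2 ^ k)
    exact (hasSum_L hA k K (by rwa [div_le_iff₀' (by positivity)] at hK)).summable
  obtain ⟨G, hG⟩ : ∃ G : Fin 3 → ℝ × ℝ → ℝ, ∀ v, G v =
    {p | |(hm v).mk _ p| ≤ B ∧ p.1 < A}.indicator ((hm v).mk _) := ⟨_, fun _ => rfl⟩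
  have hFG : ∀ v, F v =ᵐ[volume] G v := by
    intro v
    filter_upwards [(hm v).ae_eq_mk] with p hp
    rw [hG, indicator, ← hp]
    split_ifs with h
    · rfl
    · apply hA
      by_contra h1
      exact h ⟨hp ▸ hB v p, not_le.1 h1⟩
  have e1 : Lam S ε F = Lam S ε G := by simp only [Lam, Lform_congr hFG]
  have e2 : ∀ v, nrm3 (F v) = nrm3 (G v) := fun v => by
    rw [nrm3, nrm3, eLpNorm_congr_ae (ae_restrict_of_ae (hFG v))]
  simp only [e1, e2]
  refine mult (A := A) (B := B) (fun v => ?_) (fun v p => ?_) (fun v p h => ?_) (fun v => ?_) S hε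
  · have := (hm v).measurable_mk
    rw [hG]
    exact this.indicator ((measurableSet_le this.abs measurable_const).inter
      (measurableSet_lt measurable_fst measurable_const))
  · rw [hG, indicator]
    split_ifs with h
    · exact h.1
    · simpa using (abs_nonneg _).trans (hB v p)
  · rw [hG, indicator_of_notMem fun h1 => absurd h1.2 (not_lt.2 h)]
  · exact (((hc v).memLp_of_bound (hm v).aestronglyMeasurable B (ae_of_all _ (hB v))).ae_eq
      (hFG v)).restrict _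

end Vale.Agent.P075
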