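import Mathlib

/-! Elementary trace inequalities for real matrices. -/

namespace Vale.Agent.P075

open Matrix

variable {ι : Type} [Fintype ι] [DecidableEq ι]

/-- orthogonal matrix -/
def Og (U : Matrix ι ι ℝ) : Prop := U * Uᵀ = 1 ∧ Uᵀ * U = 1

/-- symmetric matrix with eigenbasis `U` and eigenvalues `d` -/
def sm (U : Matrix ι ι ℝ) (d : ι → ℝ) : Matrix ι ι ℝ := U * diagonal d * Uᵀ

lemma sm_symm (U : Matrix ι ι ℝ) (d : ι → ℝ) : (sm U d)ᵀ = sm U d := by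
  simp [sm, Matrix.mul_assoc]

lemma sm_mul {U : Matrix ι ι ℝ} (hU : Og U) (d e : ι → ℝ) :
    sm U d * sm U e = sm U (fun a => d a * e a) := by
  unfold sm
  rw [← diagonal_mul_diagonal]
  calc U * diagonal d * Uᵀ * (U * diagonal e * Uᵀ)
      = U * diagonal d * (Uᵀ * U) * diagonal e * Uᵀ := by simp only [Matrix.mul_assoc]
    _ = _ := by rw [hU.2]; simp only [Matrix.mul_one, Matrix.mul_assoc]

lemma sm_trace_mul (U : Matrix ι ι ℝ) (d : ι → ℝ) (X : Matrix ι ι ℝ) :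
    (sm U d * X).trace = ∑ a, d a * (Uᵀ * X * U) a a := by
  unfold sm
  rw [Matrix.mul_assoc, Matrix.mul_assoc, trace_mul_comm, Matrix.mul_assoc]
  simp [trace, Matrix.mul_assoc]

lemma sm_trace {U : Matrix ι ι ℝ} (hU : Og U) (d : ι → ℝ) : (sm U d).trace = ∑ a, d a := by
  have := sm_trace_mul U d 1
  simpa [hU.2] using this

lemma exists_sm (M : Matrix ι ι ℝ) (hM : Mᵀ = M) : ∃ U d, Og U ∧ M = sm U d := by
  have hH : M.IsHermitian := by
    rw [IsHermitian, conjTranspose_eq_transpose_of_trivial, hM]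
  refine ⟨(hH.eigenvectorUnitary : Matrix ι ι ℝ), hH.eigenvalues, ⟨?_, ?_⟩, ?_⟩
  · have := Unitary.coe_mul_star_self hH.eigenvectorUnitary
    rwa [Unitary.coe_star, star_eq_conjTranspose, conjTranspose_eq_transpose_of_trivial] at this
  · have := Unitary.coe_star_mul_self hH.eigenvectorUnitary
    rwa [star_eq_conjTranspose, conjTranspose_eq_transpose_of_trivial] at this
  · conv_lhs => rw [hH.spectral_theorem]
    rw [Unitary.conjStarAlgAut_apply, star_eq_conjTranspose, conjTranspose_eq_transpose_of_trivial]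
    rfl

omit [DecidableEq ι] in
lemma dot_nonneg (x : ι → ℝ) : 0 ≤ x ⬝ᵥ x := Finset.sum_nonneg fun _ _ => mul_self_nonneg _

omit [DecidableEq ι] in
lemma two_dot_le (x y : ι → ℝ) : 2 * (x ⬝ᵥ y) ≤ x ⬝ᵥ x + y ⬝ᵥ y := by
  have := dot_nonneg (x - y)
  simp only [sub_dotProduct, dotProduct_sub, dotProduct_comm y x] at this
  linarith

omit [DecidableEq ι] in
lemma dot_mulVec (M : Matrix ι ι ℝ) (x y : ι → ℝ) : x ⬝ᵥ M *ᵥ y = Mᵀ *ᵥ x ⬝ᵥ y := by
  rw [dotProduct_mulVec, mulVec_transpose]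

/-- positive semidefinite quadratic form -/
def Ps (M : Matrix ι ι ℝ) : Prop := ∀ x, 0 ≤ x ⬝ᵥ M *ᵥ x

lemma quad_sm (U : Matrix ι ι ℝ) (d x : ι → ℝ) :
    x ⬝ᵥ sm U d *ᵥ x = ∑ a, d a * ((Uᵀ *ᵥ x) a * (Uᵀ *ᵥ x) a) := by
  unfold sm
  rw [← mulVec_mulVec, ← mulVec_mulVec, dot_mulVec, dotProduct]
  apply Finset.sum_congr rfl
  intro a _
  rw [mulVec_diagonal]; ring

lemma ps_sm (U : Matrix ι ι ℝ) {d : ι → ℝ} (hd : ∀ a, 0 ≤ d a) : Ps (sm U d) := by
  intro x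
  rw [quad_sm]
  exact Finset.sum_nonneg fun a _ => mul_nonneg (hd a) (mul_self_nonneg _)

lemma diag_conj (U X : Matrix ι ι ℝ) (a : ι) :
    (Uᵀ * X * U) a a = (U *ᵥ Pi.single a 1) ⬝ᵥ X *ᵥ (U *ᵥ Pi.single a 1) := by
  rw [mulVec_mulVec, ← transpose_transpose U, ← dot_mulVec, mulVec_mulVec, transpose_transpose,
    Matrix.mul_assoc]
  simp

lemma col_unit {U : Matrix ι ι ℝ} (hU : Og U) (a : ι) :
    (U *ᵥ Pi.single a 1) ⬝ᵥ (U *ᵥ Pi.single a 1) = 1 := by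
  have := diag_conj U 1 a
  rw [Matrix.mul_one, hU.2, one_mulVec] at this
  simpa using this.symm

lemma sm_col {U : Matrix ι ι ℝ} (hU : Og U) (d : ι → ℝ) (a : ι) :
    sm U d *ᵥ (U *ᵥ Pi.single a 1) = d a • (U *ᵥ Pi.single a 1) := by
  unfold sm
  rw [mulVec_mulVec, Matrix.mul_assoc, hU.2, Matrix.mul_one, ← mulVec_mulVec, ← mulVec_smul]
  congr 1
  funext b
  by_cases h : b = a <;> simp [h]

lemma eig_nonneg {U : Matrix ι ι ℝ} (hU : Og U) {d : ι → ℝ} (h : Ps (sm U d)) (a : ι) :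
    0 ≤ d a := by
  have := h (U *ᵥ Pi.single a 1)
  rwa [sm_col hU, dotProduct_smul, col_unit hU, smul_eq_mul, mul_one] at this

lemma exists_sqrt (H : Matrix ι ι ℝ) (hH : Hᵀ = H) (hp : Ps H) :
    ∃ U s, Og U ∧ (∀ a, 0 ≤ s a) ∧ H = sm U s * sm U s := by
  obtain ⟨U, d, hU, rfl⟩ := exists_sm H hH
  refine ⟨U, fun a => √(d a), hU, fun a => Real.sqrt_nonneg _, ?_⟩
  rw [sm_mul hU]
  congr 1
  funext a
  rw [Real.mul_self_sqrt (eig_nonneg hU hp a)]

lemma lyapunov {Y D : Matrix ι ι ℝ} (hY : Yᵀ = Y) (h1 : Ps D) (h2 : ∀ v, 0 ≤ Y *ᵥ v ⬝ᵥ D *ᵥ v)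
    (h3 : ∀ v, v ⬝ᵥ D *ᵥ v = 0 → Y *ᵥ v = 0) : Ps Y := by
  obtain ⟨U, y, hU, rfl⟩ := exists_sm Y hY
  apply ps_sm
  intro a
  by_contra hneg
  rw [not_le] at hneg
  have h4 := h2 (U *ᵥ Pi.single a 1)
  rw [sm_col hU, smul_dotProduct, smul_eq_mul] at h4
  have h5 := h3 _ (le_antisymm (by nlinarith [h1 (U *ᵥ Pi.single a 1)]) (h1 _))
  have h6 := congrArg (fun z => (U *ᵥ Pi.single a 1) ⬝ᵥ z) h5
  simp only [sm_col hU, dotProduct_smul, col_unit hU, smul_eq_mul, mul_one, dotProduct_zero] at h6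
  linarith

lemma ker_of_quad {U : Matrix ι ι ℝ} (hU : Og U) {s : ι → ℝ} (hs : ∀ a, 0 ≤ s a) {v : ι → ℝ}
    (h : v ⬝ᵥ sm U s *ᵥ v = 0) : sm U s *ᵥ v = 0 := by
  have e : sm U s = sm U (fun a => √(s a)) * sm U (fun a => √(s a)) := by
    rw [sm_mul hU]; congr 1; funext a; rw [Real.mul_self_sqrt (hs a)]
  rw [e, ← mulVec_mulVec, dot_mulVec, sm_symm, dotProduct_self_eq_zero] at h
  rw [e, ← mulVec_mulVec, h, mulVec_zero]

/-- contraction -/
def Con (K : Matrix ι ι ℝ) : Prop := ∀ x, K *ᵥ x ⬝ᵥ K *ᵥ x ≤ x ⬝ᵥ x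

omit [DecidableEq ι] in
lemma Con.transpose {K : Matrix ι ι ℝ} (h : Con K) : Con Kᵀ := by
  intro y
  have h1 := two_dot_le y (K *ᵥ (Kᵀ *ᵥ y))
  have h2 := h (Kᵀ *ᵥ y)
  rw [dot_mulVec] at h1
  linarith

omit [DecidableEq ι] in
lemma Con.mul {K L : Matrix ι ι ℝ} (h : Con K) (h' : Con L) : Con (K * L) := by
  intro x
  rw [← mulVec_mulVec]
  exact (h _).trans (h' x)

lemma douglas {U : Matrix ι ι ℝ} (hU : Og U) (s : ι → ℝ) {M : Matrix ι ι ℝ}
    (h : ∀ x, M *ᵥ x ⬝ᵥ M *ᵥ x ≤ sm U s *ᵥ x ⬝ᵥ sm U s *ᵥ x) : ∃ K, Con K ∧ M = K * sm U s := by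
  refine ⟨M * sm U (fun a => (s a)⁻¹), fun x => ?_, ?_⟩
  · rw [← mulVec_mulVec]
    refine (h _).trans ?_
    rw [mulVec_mulVec, sm_mul hU, ← sm_symm, ← dot_mulVec, sm_symm, mulVec_mulVec, sm_mul hU,
      quad_sm]
    have : x ⬝ᵥ x = x ⬝ᵥ sm U (fun _ => 1) *ᵥ x := by simp [sm, hU.1]
    rw [this, quad_sm]
    apply Finset.sum_le_sum
    intro a _
    apply mul_le_mul_of_nonneg_right _ (mul_self_nonneg _)
    by_cases h0 : s a = 0
    · simp [h0]
    · simp [h0]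
  · have key : ∀ a, M *ᵥ (U *ᵥ Pi.single a 1)
        = (M * sm U (fun a => (s a)⁻¹) * sm U s) *ᵥ (U *ᵥ Pi.single a 1) := by
      intro a
      rw [Matrix.mul_assoc, sm_mul hU, ← mulVec_mulVec, sm_col hU]
      by_cases h0 : s a = 0
      · have := h (U *ᵥ Pi.single a 1)
        rw [sm_col hU, h0, zero_smul, dotProduct_zero] at this
        rw [dotProduct_self_eq_zero.1 (le_antisymm this (dot_nonneg _))]
        simp [h0]
      · simp [h0]
    have h2 : M * U = M * sm U (fun a => (s a)⁻¹) * sm U s * U := by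
      apply Matrix.ext_of_mulVec_single
      intro a
      rw [← mulVec_mulVec, key, mulVec_mulVec]
    calc M = M * U * Uᵀ := by rw [Matrix.mul_assoc, hU.1, Matrix.mul_one]
      _ = _ := by rw [h2, Matrix.mul_assoc _ U, hU.1, Matrix.mul_one]

/-- squared Hilbert-Schmidt norm -/
def hs (X : Matrix ι ι ℝ) : ℝ := (Xᵀ * X).trace

omit [DecidableEq ι] in
lemma hs_transpose (X : Matrix ι ι ℝ) : hs Xᵀ = hs X := by
  rw [hs, hs, transpose_transpose, trace_mul_comm]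

lemma trace_eq_sum (X Y : Matrix ι ι ℝ) :
    (Xᵀ * Y).trace = ∑ e, X *ᵥ Pi.single e 1 ⬝ᵥ Y *ᵥ Pi.single e 1 := by
  simp [trace, Matrix.mul_apply, dotProduct]

lemma hs_mul_left {K : Matrix ι ι ℝ} (h : Con K) (X : Matrix ι ι ℝ) : hs (K * X) ≤ hs X := by
  rw [hs, hs, trace_eq_sum, trace_eq_sum]
  apply Finset.sum_le_sum
  intro e _
  rw [← mulVec_mulVec]
  exact h _

lemma hs_mul_right {K : Matrix ι ι ℝ} (h : Con K) (X : Matrix ι ι ℝ) : hs (X * K) ≤ hs X := by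
  rw [← hs_transpose, transpose_mul, ← hs_transpose X]
  exact hs_mul_left h.transpose _

lemma abs_trace_le (X Y : Matrix ι ι ℝ) : 2 * |(X * Y).trace| ≤ hs X + hs Y := by
  have key : ∀ Y : Matrix ι ι ℝ, 2 * (X * Y).trace ≤ hs X + hs Y := by
    intro Y
    rw [← hs_transpose X, hs, hs, trace_eq_sum, trace_eq_sum, ← Finset.sum_add_distrib]
    conv_lhs => rw [← transpose_transpose X, trace_eq_sum, Finset.mul_sum]
    exact Finset.sum_le_sum fun e _ => two_dot_le _ _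
  have h1 := key Y
  have h2 := key (-Y)
  have h3 : hs (-Y) = hs Y := by simp [hs]
  rw [Matrix.mul_neg, trace_neg, h3] at h2
  rcases abs_cases (X * Y).trace with h | h <;> linarith [h.1]

lemma scalar_young {l r w : ℝ} (hl : 0 < l) (hw : 0 ≤ w) :
    r * r * w ≤ 2 / 3 * l * |r| ^ 3 + 1 / (3 * l ^ 2) * w ^ 3 := by
  obtain ⟨u, rfl⟩ : ∃ u, w = l * u := ⟨w / l, by field_simp⟩
  have hu : 0 ≤ u := nonneg_of_mul_nonneg_right hw hl
  rw [← abs_mul_abs_self r]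
  have hs := abs_nonneg r
  generalize |r| = s at *
  have : 1 / (3 * l ^ 2) * (l * u) ^ 3 = l * u ^ 3 / 3 := by field_simp
  rw [this]
  nlinarith [mul_nonneg hl.le (mul_nonneg (sq_nonneg (s - u)) (by linarith : 0 ≤ 2 * s + u))]

theorem trace_young {l : ℝ} (hl : 0 < l) (U V K : Matrix ι ι ℝ) (hU : Og U) (hV : Og V) (r w : ι → ℝ)
    (hw : ∀ a, 0 ≤ w a) :
    (sm V r * Kᵀ * sm U w * K * sm V r).trace ≤
      2 / 3 * l * (sm V (fun a => |r a| ^ 3) * (Kᵀ * K)).trace +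
      1 / (3 * l ^ 2) * (sm U (fun a => w a ^ 3) * (K * Kᵀ)).trace := by
  obtain ⟨k, hk⟩ : ∃ k, k = Uᵀ * K * V := ⟨_, rfl⟩
  have e1 : Vᵀ * (Kᵀ * K) * V = kᵀ * k := by
    rw [hk]
    simp only [transpose_mul, transpose_transpose, Matrix.mul_assoc]
    rw [← Matrix.mul_assoc U, hU.1, Matrix.one_mul]
  have e2 : Uᵀ * (K * Kᵀ) * U = k * kᵀ := by
    rw [hk]
    simp only [transpose_mul, transpose_transpose, Matrix.mul_assoc]
    rw [← Matrix.mul_assoc V, hV.1, Matrix.one_mul]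
  have e3 : Vᵀ * (Kᵀ * sm U w * K) * V = kᵀ * diagonal w * k := by
    rw [hk]
    simp only [sm, transpose_mul, transpose_transpose, Matrix.mul_assoc]
  have e4 : (sm V r * Kᵀ * sm U w * K * sm V r).trace
      = (sm V (fun a => r a * r a) * (Kᵀ * sm U w * K)).trace := by
    rw [trace_mul_comm, ← sm_mul hV]
    simp only [Matrix.mul_assoc]
  rw [e4, sm_trace_mul, sm_trace_mul, sm_trace_mul, e1, e2, e3]
  have e5 : ∀ a, (kᵀ * diagonal w * k) a a = ∑ b, w b * (k b a * k b a) := by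
    intro a
    rw [Matrix.mul_apply]
    apply Finset.sum_congr rfl
    intro b _
    rw [mul_diagonal, transpose_apply]; ring
  simp only [e5]
  simp only [Matrix.mul_apply, transpose_apply, Finset.mul_sum]
  rw [Finset.sum_comm (f := fun b a => 1 / (3 * l ^ 2) * (w b ^ 3 * (k b a * k b a))),
    ← Finset.sum_add_distrib]
  apply Finset.sum_le_sum
  intro a _
  rw [← Finset.sum_add_distrib]
  apply Finset.sum_le_sum
  intro b _
  have := mul_le_mul_of_nonneg_right (scalar_young (r := r a) hl (hw b)) (mul_self_nonneg (k b a))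
  linarith

lemma trace_con_le {U : Matrix ι ι ℝ} (hU : Og U) {d : ι → ℝ} (hd : ∀ a, 0 ≤ d a)
    {K : Matrix ι ι ℝ} (hK : Con K) : (sm U d * (Kᵀ * K)).trace ≤ ∑ a, d a := by
  rw [sm_trace_mul]
  apply Finset.sum_le_sum
  intro a _
  apply mul_le_of_le_one_right (hd a)
  rw [diag_conj, ← mulVec_mulVec, dot_mulVec, transpose_transpose]
  exact (hK _).trans (col_unit hU a).le

end Vale.Agent.P075
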