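import Vale.Agent.P075.Core

/-! The Bellman function and its one-step inequality. -/

namespace Vale.Agent.P075

open Matrix

variable {ι : Type} [Fintype ι] [DecidableEq ι]

/-- the symmetrised Gram matrix -/
def Hm (N : Matrix ι ι ℝ) : Matrix ι ι ℝ := N * Nᵀ + Nᵀ * N

omit [DecidableEq ι] in
lemma quad_Hm (N : Matrix ι ι ℝ) (x : ι → ℝ) :
    x ⬝ᵥ Hm N *ᵥ x = Nᵀ *ᵥ x ⬝ᵥ Nᵀ *ᵥ x + N *ᵥ x ⬝ᵥ N *ᵥ x := by
  rw [Hm, add_mulVec, dotProduct_add, ← mulVec_mulVec, ← mulVec_mulVec, dot_mulVec N x,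
    dot_mulVec Nᵀ x, transpose_transpose]

lemma exists_Hm (N : Matrix ι ι ℝ) :
    ∃ p : Matrix ι ι ℝ × (ι → ℝ), Og p.1 ∧ (∀ a, 0 ≤ p.2 a) ∧ Hm N = sm p.1 p.2 * sm p.1 p.2 := by
  obtain ⟨U, s, h⟩ := exists_sqrt (Hm N) (by simp [Hm]) (fun x => by
    rw [quad_Hm]; exact add_nonneg (dot_nonneg _) (dot_nonneg _))
  exact ⟨(U, s), h⟩

/-- the Bellman function: the trace of the power `3/2` of `Hm N` -/
noncomputable def bel (N : Matrix ι ι ℝ) : ℝ := ∑ a, (exists_Hm N).choose.2 a ^ 3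

lemma bel_spec (N : Matrix ι ι ℝ) : ∃ U s, Og U ∧ (∀ a, 0 ≤ s a) ∧ Hm N = sm U s * sm U s ∧
    bel N = ∑ a, s a ^ 3 :=
  ⟨_, _, (exists_Hm N).choose_spec.1, (exists_Hm N).choose_spec.2.1,
    (exists_Hm N).choose_spec.2.2, rfl⟩

lemma bel_nonneg (N : Matrix ι ι ℝ) : 0 ≤ bel N := by
  obtain ⟨U, s, -, hs, -, h⟩ := bel_spec N
  rw [h]
  exact Finset.sum_nonneg fun a _ => pow_nonneg (hs a) 3

lemma sm_cube {U : Matrix ι ι ℝ} (hU : Og U) (s : ι → ℝ) :
    sm U s * sm U s * sm U s = sm U (fun a => s a ^ 3) := by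
  rw [sm_mul hU, sm_mul hU]; congr 1; funext a; ring

omit [Fintype ι] [DecidableEq ι] in
lemma abs_cube {s : ι → ℝ} (hs : ∀ a, 0 ≤ s a) : (fun a => |s a| ^ 3) = fun a => s a ^ 3 := by
  funext a; rw [abs_of_nonneg (hs a)]

lemma bel_diag {N : Matrix ι ι ℝ} {r : ι → ℝ} (h : Hm N = diagonal fun a => r a * r a) :
    bel N ≤ ∑ a, |r a| ^ 3 := by
  obtain ⟨U, s, hU, hs, e, hb⟩ := bel_spec N
  have h1 : Og (1 : Matrix ι ι ℝ) := ⟨by simp, by simp⟩
  have y := trace_young one_pos U 1 1 hU h1 r s hs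
  have e1 : sm 1 r * sm 1 r = sm U s * sm U s := by
    rw [← e, h, sm_mul h1]; simp [sm]
  simp only [transpose_one, Matrix.mul_one, sm_trace hU, sm_trace h1] at y
  rw [trace_mul_comm, ← Matrix.mul_assoc, e1, sm_cube hU, sm_trace hU] at y
  linarith

lemma trace_quad_le {U : Matrix ι ι ℝ} (hU : Og U) {d : ι → ℝ} (hd : ∀ a, 0 ≤ d a)
    {X : Matrix ι ι ℝ} {c : ℝ} (hX : ∀ x, x ⬝ᵥ X *ᵥ x ≤ c * (x ⬝ᵥ x)) :
    (sm U d * X).trace ≤ c * ∑ a, d a := by
  rw [sm_trace_mul, Finset.mul_sum]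
  apply Finset.sum_le_sum
  intro a _
  rw [diag_conj, mul_comm c]
  apply mul_le_mul_of_nonneg_left _ (hd a)
  simpa only [col_unit hU a, mul_one] using hX (U *ᵥ Pi.single a 1)

lemma con_diag {q : ι → ℝ} (hq : ∀ a, q a * q a ≤ 1) : Con (diagonal q) := by
  intro x
  apply Finset.sum_le_sum
  intro a _
  rw [mulVec_diagonal]
  nlinarith [hq a, mul_self_nonneg (x a)]

lemma step_a {κ : Type} [Fintype κ] {l : ℝ} (hl : 0 < l) (hl2 : l ^ 2 = 2) (N : Matrix ι ι ℝ)
    (q : κ → ι → ℝ) (hq : ∀ c a, q c a * q c a = q c a) (hq2 : ∀ a, ∑ c, q c a ≤ 2)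
    {W : Matrix ι ι ℝ} (hW : Og W) {w : ι → ℝ} (hw : ∀ a, 0 ≤ w a)
    (h : sm W w * sm W w = ∑ c, Hm (diagonal (q c) * N * diagonal (q c))) :
    ∑ a, w a ^ 3 ≤ l * ∑ c, bel (diagonal (q c) * N * diagonal (q c)) := by
  have hQ : ∀ c, diagonal (q c) * diagonal (q c) = diagonal (q c) := by
    intro c; rw [diagonal_mul_diagonal]; simp only [hq]
  have key : ∀ c, (sm W w * Hm (diagonal (q c) * N * diagonal (q c))).trace ≤
      2 / 3 * l * bel (diagonal (q c) * N * diagonal (q c)) +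
      1 / 6 * (sm W (fun a => w a ^ 3) * diagonal (q c)).trace := by
    intro c
    obtain ⟨U, s, hU, hs, e, hb⟩ := bel_spec (diagonal (q c) * N * diagonal (q c))
    have y := trace_young hl W U (diagonal (q c)) hW hU s w hw
    have y2 := trace_con_le hU (d := fun a => |s a| ^ 3) (fun a => by positivity)
      (con_diag (q := q c) fun a => by nlinarith [hq c a, mul_self_nonneg (q c a - 1)])
    rw [abs_cube hs] at y y2
    rw [diagonal_transpose, hQ] at y y2
    have e1 : (sm U s * diagonal (q c) * sm W w * diagonal (q c) * sm U s).trace =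
        (sm W w * Hm (diagonal (q c) * N * diagonal (q c))).trace := by
      have : Hm (diagonal (q c) * N * diagonal (q c)) =
          diagonal (q c) * Hm (diagonal (q c) * N * diagonal (q c)) * diagonal (q c) := by
        simp only [Hm, transpose_mul, diagonal_transpose, Matrix.mul_add, Matrix.add_mul,
          Matrix.mul_assoc, hQ]
        simp only [← Matrix.mul_assoc, hQ]
      rw [this, e, Matrix.mul_assoc, Matrix.mul_assoc, trace_mul_comm]
      simp only [Matrix.mul_assoc]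
    rw [e1, hl2] at y
    have := mul_le_mul_of_nonneg_left y2 (by positivity : 0 ≤ 2 / 3 * l)
    rw [hb]
    linarith
  have s1 := Finset.sum_le_sum fun c (_ : c ∈ Finset.univ) => key c
  rw [← trace_sum, ← Finset.mul_sum, ← h, ← Matrix.mul_assoc, sm_cube hW, sm_trace hW,
    Finset.sum_add_distrib, ← Finset.mul_sum, ← Finset.mul_sum, ← trace_sum, ← Finset.mul_sum] at s1
  have s2 := trace_quad_le hW (d := fun a => w a ^ 3) (fun a => pow_nonneg (hw a) 3)
    (X := ∑ c, diagonal (q c)) (c := 2) (fun x => by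
      rw [sum_mulVec, dotProduct_sum, dotProduct, Finset.mul_sum]
      simp only [dotProduct, mulVec_diagonal]
      rw [Finset.sum_comm]
      apply Finset.sum_le_sum
      intro a _
      have : ∀ c, x a * (q c a * x a) = q c a * (x a * x a) := fun c => by ring
      simp only [this]
      rw [← Finset.sum_mul]
      exact mul_le_mul_of_nonneg_right (hq2 a) (mul_self_nonneg _))
  linarith

theorem step {κ : Type} [Fintype κ] (N : Matrix ι ι ℝ) (p : ι → ℝ) (hp : ∀ a, p a * p a = p a)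
    (q : κ → ι → ℝ) (hq : ∀ c a, q c a * q c a = q c a) (hq2 : ∀ a, ∑ c, q c a ≤ 2)
    (h : diagonal p * Hm N * diagonal p + (1 - diagonal p) * Hm N * (1 - diagonal p) =
      ∑ c, Hm (diagonal (q c) * N * diagonal (q c))) {Z : Matrix ι ι ℝ}
    (hZ : Z = diagonal fun a => 2 * p a - 1) :
    bel N + 3 / 8 * |(Z * N * Z * N * Z * N).trace| ≤
      2 * ∑ c, bel (diagonal (q c) * N * diagonal (q c)) := by
  obtain ⟨l, hl, hl2⟩ : ∃ l : ℝ, 0 < l ∧ l ^ 2 = 2 := ⟨√2, by positivity, by simp⟩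
  obtain ⟨U, s, hU, hs, e, hb⟩ := bel_spec N
  obtain ⟨P, hP⟩ : ∃ P, P = diagonal p := ⟨_, rfl⟩
  have hPs : Pᵀ = P := by rw [hP, diagonal_transpose]
  have hPP : P * P = P := by rw [hP, diagonal_mul_diagonal]; simp only [hp]
  have hZP : Z = P - (1 - P) := by
    rw [hZ, hP, ← diagonal_one, diagonal_sub, diagonal_sub]; congr 1; funext a; ring
  have hZc : Con Z := by rw [hZ]; exact con_diag fun a => by nlinarith [hp a]
  have hZs : Zᵀ = Z := by rw [hZ, diagonal_transpose]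
  rw [← hP] at h
  obtain ⟨P', hP'⟩ : ∃ P', P' = 1 - P := ⟨_, rfl⟩
  rw [← hP'] at h hZP
  have hPs' : P'ᵀ = P' := by rw [hP', transpose_sub, transpose_one, hPs]
  have hPP' : P' * P' = P' := by
    rw [hP', Matrix.mul_sub, Matrix.mul_one, Matrix.sub_mul, hPP]; simp
  have hsum : P + P' = 1 := by rw [hP']; simp
  have hR := sm_symm U s
  have qq : ∀ (A : Matrix ι ι ℝ), Aᵀ = A → ∀ x, x ⬝ᵥ (A * Hm N * A) *ᵥ x =
      (sm U s * A) *ᵥ x ⬝ᵥ (sm U s * A) *ᵥ x := by
    intro A hA x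
    rw [e, ← Matrix.mul_assoc, Matrix.mul_assoc _ _ A, ← mulVec_mulVec, dot_mulVec, transpose_mul,
      hR, hA]
  obtain ⟨W, w, hW, hw, eW⟩ := exists_sqrt (P * Hm N * P + P' * Hm N * P')
    (by simp [Hm, hPs, hPs', Matrix.mul_assoc]) (fun x => by
      rw [add_mulVec, dotProduct_add, qq P hPs, qq P' hPs']
      exact add_nonneg (dot_nonneg _) (dot_nonneg _))
  have ha := step_a hl hl2 N q hq hq2 hW hw (by rw [← eW, h])
  obtain ⟨Y, hTs, hL⟩ := exists_T hU hs hZs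
  obtain ⟨T, hT⟩ : ∃ T, T = Y * sm U s := ⟨_, rfl⟩
  rw [← hT] at hTs hL
  have qR : ∀ x, sm U s *ᵥ x ⬝ᵥ sm U s *ᵥ x = Nᵀ *ᵥ x ⬝ᵥ Nᵀ *ᵥ x + N *ᵥ x ⬝ᵥ N *ᵥ x := by
    intro x
    rw [← quad_Hm, e, ← mulVec_mulVec, dot_mulVec (sm U s) x, hR]
  have hc := core (N := N) hU hs hZc hT hTs hL
    (fun x => by rw [qR]; linarith [dot_nonneg (Nᵀ *ᵥ x)])
    (fun x => by rw [qR]; linarith [dot_nonneg (N *ᵥ x)])
  have qS : ∀ x, sm W w *ᵥ x ⬝ᵥ sm W w *ᵥ x = (sm U s * P) *ᵥ x ⬝ᵥ (sm U s * P) *ᵥ x +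
      (sm U s * P') *ᵥ x ⬝ᵥ (sm U s * P') *ᵥ x := by
    intro x
    rw [← qq P hPs, ← qq P' hPs', ← dotProduct_add, ← add_mulVec, eW, ← mulVec_mulVec,
      dot_mulVec (sm W w) x, sm_symm]
  have key : ∀ (A : Matrix ι ι ℝ) (c : ℝ), Aᵀ = A → A * A = A → |c| ≤ 2 →
      (∀ x, (sm U s * A) *ᵥ x ⬝ᵥ (sm U s * A) *ᵥ x ≤ sm W w *ᵥ x ⬝ᵥ sm W w *ᵥ x) →
      (A * (sm U s * (sm U s + c • T) * sm U s)).trace ≤
        2 / 3 * l * (sm W w * (A * Hm N * A)).trace +
        1 / 6 * ((sm U s + c • T) * (sm U s + c • T) * (sm U s + c • T)).trace := by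
    intro A c hA hAA hc hle
    obtain ⟨K, hK, eK⟩ := douglas hW w hle
    have eK' : A * sm U s = sm W w * Kᵀ := by
      have := congrArg transpose eK
      rwa [transpose_mul, transpose_mul, hA, hR, sm_symm] at this
    obtain ⟨V, t, hV, eV⟩ := exists_sm (sm U s + c • T) (by simp [hR, hTs])
    have ht := eig_nonneg hV (eV ▸ abs_quad_T hU hs hZc hT hTs hL c hc)
    have y := trace_young hl V W K hV hW w t ht
    have y2 := trace_con_le hV (d := fun a => t a ^ 3) (fun a => pow_nonneg (ht a) 3) hK.transpose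
    rw [transpose_transpose] at y2
    rw [abs_cube hw, hl2, ← eK', Matrix.mul_assoc _ K, ← eK, ← sm_cube hW] at y
    have e1 : (A * sm U s * sm V t * (sm U s * A)).trace =
        (A * (sm U s * sm V t * sm U s)).trace := by
      rw [← Matrix.mul_assoc, trace_mul_comm]
      simp only [← Matrix.mul_assoc, hAA]
    have e2 : (sm W w * sm W w * sm W w * (Kᵀ * K)).trace = (sm W w * (A * Hm N * A)).trace := by
      rw [e, ← Matrix.mul_assoc A, Matrix.mul_assoc _ _ A, eK, eK', Matrix.mul_assoc,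
        Matrix.mul_assoc, trace_mul_comm]
      simp only [Matrix.mul_assoc]
    rw [e1, e2] at y
    rw [eV, sm_cube hV, sm_trace hV]
    linarith
  have k1 := key P 1 hPs hPP (by norm_num) (fun x => by
    rw [qS]; linarith [dot_nonneg ((sm U s * P') *ᵥ x)])
  have k2 := key P' (-1) hPs' hPP' (by norm_num) (fun x => by
    rw [qS]; linarith [dot_nonneg ((sm U s * P) *ᵥ x)])
  have f1 : (sm W w * (P * Hm N * P)).trace + (sm W w * (P' * Hm N * P')).trace = ∑ a, w a ^ 3 := by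
    rw [← trace_add, ← Matrix.mul_add, eW, ← Matrix.mul_assoc, sm_cube hW, sm_trace hW]
  have f2 : (sm U s * sm U s * sm U s).trace = bel N := by rw [sm_cube hU, sm_trace hU, hb]
  generalize sm U s = R at *
  have f3 : (P * (R * R * R)).trace + (P' * (R * R * R)).trace = bel N := by
    rw [← trace_add, ← Matrix.add_mul, hsum, Matrix.one_mul, f2]
  have c1 : (R * T * T).trace = (T * R * T).trace := by rw [trace_mul_comm, Matrix.mul_assoc]
  have c2 : (T * T * R).trace = (T * R * T).trace := by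
    rw [Matrix.mul_assoc, trace_mul_comm]
  have f4 : (P * (R * T * R)).trace - (P' * (R * T * R)).trace = 2 * (T * R * T).trace := by
    rw [← trace_sub, ← Matrix.sub_mul, ← hZP, ← Matrix.mul_assoc, trace_mul_comm,
      ← Matrix.mul_assoc, ← Matrix.mul_assoc, ← hL, Matrix.add_mul, trace_add, c1]
    ring
  simp only [one_smul, neg_smul, Matrix.mul_add, Matrix.add_mul, Matrix.mul_neg, Matrix.neg_mul,
    trace_add, trace_neg] at k1 k2
  have := mul_le_mul_of_nonneg_left ha hl.le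
  rw [← mul_assoc, ← sq, hl2] at this
  have f5 : 2 / 3 * l * (sm W w * (P * Hm N * P)).trace + 2 / 3 * l * (sm W w * (P' * Hm N * P')).trace
      = 2 / 3 * (l * ∑ a, w a ^ 3) := by rw [← f1]; ring
  linarith

end Vale.Agent.P075
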